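import Vale.Agent.P208.Estimate

/-!
The doubling set: a square with coloured row and column sheets at all scales.
-/

namespace Vale.Agent.P208

open Finset

/-- Two base directions and a sequence of separated colour directions. -/
structure Frame (E : Type*) [NormedAddCommGroup E] [NormedSpace ℝ E] where
  u : E
  v : E
  e : ℕ → E
  u_le : ‖u‖ ≤ 1
  v_le : ‖v‖ ≤ 1
  e_le : ∀ a, ‖e a‖ ≤ 1
  coord : ∀ α β : ℝ, |α| ≤ 6 * ‖α • u + β • v‖ ∧ |β| ≤ 6 * ‖α • u + β • v‖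
  sep0 : ∀ (α β : ℝ) (a : ℕ), 1 / 2 ≤ ‖α • u + β • v + e a‖
  sep : ∀ (α β : ℝ) (a b : ℕ), a ≠ b → 1 / 2 ≤ ‖α • u + β • v + (e a - e b)‖

variable {E : Type*} [NormedAddCommGroup E] [NormedSpace ℝ E]

theorem exists_riesz (h : ¬ FiniteDimensional ℝ E) : ∃ g : ℕ → E, ∀ n, ‖g n‖ ≤ 1 ∧
    ∀ y ∈ Submodule.span ℝ (g '' {i | i < n}), 1 / 2 ≤ ‖g n - y‖ := by
  have key : ∀ s : Set E, s.Finite → ∃ x : E, ‖x‖ ≤ 1 ∧
      ∀ y ∈ Submodule.span ℝ s, 1 / 2 ≤ ‖x - y‖ := by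
    intro s hs
    have : FiniteDimensional ℝ (Submodule.span ℝ s) := FiniteDimensional.span_of_finite ℝ hs
    have hF : ∃ x : E, x ∉ Submodule.span ℝ s := by
      by_contra hc
      push Not at hc
      apply h
      have htop : Submodule.span ℝ s = ⊤ := eq_top_iff.mpr fun x _ => hc x
      exact Module.Finite.equiv (LinearEquiv.ofTop _ htop)
    obtain ⟨x, hx, hx'⟩ := riesz_lemma_of_norm_lt (𝕜 := ℝ) (c := (3 / 2 : ℝ)) (by norm_num)
      (R := 2) (by norm_num) (Submodule.closed_of_finiteDimensional (Submodule.span ℝ s)) hF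
    refine ⟨(1 / 2 : ℝ) • x, by rw [norm_smul]; norm_num; linarith, fun y hy => ?_⟩
    have := hx' ((2 : ℝ) • y) (Submodule.smul_mem _ _ hy)
    have e : (1 / 2 : ℝ) • x - y = (1 / 2 : ℝ) • (x - (2 : ℝ) • y) := by module
    rw [e, norm_smul]
    norm_num
    linarith
  have key2 : ∀ (n : ℕ) (f : ∀ i, i < n → E), ∃ x : E, ‖x‖ ≤ 1 ∧
      ∀ y ∈ Submodule.span ℝ (Set.range fun i : Fin n => f i i.2), 1 / 2 ≤ ‖x - y‖ :=
    fun n f => key _ (Set.finite_range _)
  choose F hF using key2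
  let g : ℕ → E := fun n => Nat.strongRec F n
  have hg : ∀ n, g n = F n (fun i _ => g i) := fun n => Nat.strongRec_eq F n
  refine ⟨g, fun n => ?_⟩
  have := hF n (fun i _ => g i)
  rw [← hg] at this
  refine ⟨this.1, fun y hy => this.2 y (Submodule.span_mono ?_ hy)⟩
  rintro _ ⟨i, hi, rfl⟩
  exact ⟨⟨i, hi⟩, rfl⟩

theorem exists_frame (h : ¬ FiniteDimensional ℝ E) : Nonempty (Frame E) := by
  obtain ⟨g, hg⟩ := exists_riesz h
  have mem : ∀ n i, i < n → g i ∈ Submodule.span ℝ (g '' {i | i < n}) :=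
    fun n i hi => Submodule.subset_span ⟨i, hi, rfl⟩
  have mem2 : ∀ (n : ℕ) (α β : ℝ), α • g 0 + β • g 1 ∈ Submodule.span ℝ (g '' {i | i < n + 2}) :=
    fun n α β => Submodule.add_mem _ (Submodule.smul_mem _ _ (mem _ 0 (by omega)))
      (Submodule.smul_mem _ _ (mem _ 1 (by omega)))
  have sep1 : ∀ (α β : ℝ) (a b : ℕ), b < a → 1 / 2 ≤ ‖α • g 0 + β • g 1 + (g (a + 2) - g (b + 2))‖ := by
    intro α β a b hab
    have := (hg (a + 2)).2 (g (b + 2) - (α • g 0 + β • g 1))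
      (Submodule.sub_mem _ (mem _ _ (by omega)) (mem2 a α β))
    convert this using 2
    abel
  refine ⟨⟨g 0, g 1, fun a => g (a + 2), (hg 0).1, (hg 1).1, fun a => (hg _).1, ?_, ?_, ?_⟩⟩
  · intro α β
    have h0 : 1 / 2 ≤ ‖g 0‖ := by simpa using (hg 0).2 0 (Submodule.zero_mem _)
    have hβ : |β| ≤ 2 * ‖α • g 0 + β • g 1‖ := by
      rcases eq_or_ne β 0 with rfl | hβ
      · simp
      · have := (hg 1).2 (-(α / β) • g 0) (Submodule.smul_mem _ _ (mem _ 0 (by omega)))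
        have e : α • g 0 + β • g 1 = β • (g 1 - -(α / β) • g 0) := by
          rw [smul_sub, smul_smul]
          have : β * -(α / β) = -α := by field_simp
          rw [this]; module
        rw [e, norm_smul, Real.norm_eq_abs]
        nlinarith [abs_nonneg β]
    have h1 : ‖α • g 0‖ ≤ ‖α • g 0 + β • g 1‖ + ‖β • g 1‖ := by
      simpa using norm_sub_le (α • g 0 + β • g 1) (β • g 1)
    rw [norm_smul, norm_smul, Real.norm_eq_abs, Real.norm_eq_abs] at h1
    have h2 : |β| * ‖g 1‖ ≤ |β| := mul_le_of_le_one_right (abs_nonneg _) (hg 1).1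
    have h3 := mul_le_mul_of_nonneg_left h0 (abs_nonneg α)
    have h4 := norm_nonneg (α • g 0 + β • g 1)
    constructor <;> linarith
  · intro α β a
    have := (hg (a + 2)).2 (-(α • g 0 + β • g 1)) (Submodule.neg_mem _ (mem2 a α β))
    convert this using 2
    abel
  · intro α β a b hab
    rcases lt_or_gt_of_ne hab with h | h
    · have := sep1 (-α) (-β) b a h
      have e : α • g 0 + β • g 1 + (g (a + 2) - g (b + 2))
          = -(-α • g 0 + -β • g 1 + (g (b + 2) - g (a + 2))) := by module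
      rwa [e, norm_neg]
    · exact sep1 α β a b h

/-- Amplitude of level `j`. -/
noncomputable def amp (j : ℕ) : ℝ := (1 / 16) ^ j

/-- Number of colours of level `j`. -/
def nCol (j : ℕ) : ℕ := (Nat.unpair (Nat.unpair j).1).1 + 1

/-- Relative width of the columns of level `j`. -/
def wid (j : ℕ) : ℕ := (Nat.unpair (Nat.unpair j).1).2 + 1

theorem amp_pos (j : ℕ) : 0 < amp j := by unfold amp; positivity

theorem amp_succ (j : ℕ) : amp (j + 1) = amp j / 16 := by unfold amp; ring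

theorem amp_anti {i j : ℕ} (h : i ≤ j) : amp j ≤ amp i :=
  pow_le_pow_of_le_one (by norm_num) (by norm_num) h

theorem exists_amp_le {τ : ℝ} (hτ : 0 < τ) : ∃ j, amp j ≤ τ := by
  obtain ⟨j, hj⟩ := exists_pow_lt_of_lt_one hτ (show (1 / 16 : ℝ) < 1 by norm_num)
  exact ⟨j, hj.le⟩

theorem tail (c : ℕ → E) (hc : ∀ j, ‖c j‖ ≤ 2) (j₀ : ℕ) (h0 : ∀ j < j₀, c j = 0) (N : ℕ) :
    ‖∑ j ∈ range N, amp j • c j‖ ≤ 32 / 15 * amp j₀ := by
  have key : ∀ k, ‖∑ j ∈ range (j₀ + k), amp j • c j‖ ≤ 32 / 15 * (amp j₀ - amp (j₀ + k)) := by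
    intro k
    induction k with
    | zero =>
      rw [sum_eq_zero fun j hj => by rw [h0 j (by simpa using hj), smul_zero]]
      simp
    | succ k ih =>
      rw [← add_assoc, sum_range_succ, amp_succ]
      refine (norm_add_le _ _).trans ?_
      rw [norm_smul, Real.norm_of_nonneg (amp_pos _).le]
      have := mul_le_mul_of_nonneg_left (hc (j₀ + k)) (amp_pos (j₀ + k)).le
      linarith
  rcases le_total j₀ N with h | h
  · obtain ⟨k, rfl⟩ := Nat.exists_eq_add_of_le h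
    linarith [key k, amp_pos (j₀ + k)]
  · rw [sum_eq_zero fun j hj => by
      rw [h0 j (lt_of_lt_of_le (mem_range.mp hj) h), smul_zero], norm_zero]
    linarith [amp_pos j₀]

theorem tail' (c : ℕ → E) (hc : ∀ j, ‖c j‖ ≤ 2) {τ : ℝ} (hτ : 0 ≤ τ)
    (h0 : ∀ j, τ < amp j → c j = 0) (N : ℕ) : ‖∑ j ∈ range N, amp j • c j‖ ≤ 32 / 15 * τ := by
  classical
  rcases hτ.eq_or_lt with rfl | hτ
  · rw [sum_eq_zero fun j _ => by rw [h0 j (amp_pos j), smul_zero]]
    simp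
  · have hex := exists_amp_le hτ
    have := tail c hc (Nat.find hex) (fun j hj => h0 j (not_le.mp (Nat.find_min hex hj))) N
    linarith [Nat.find_spec hex]

theorem sum_ext (d : ℕ → E) {N N' : ℕ} (h : ∀ j, N ≤ j → d j = 0) (hN : N ≤ N') :
    ∑ j ∈ range N', amp j • d j = ∑ j ∈ range N, amp j • d j := by
  symm
  refine sum_subset (range_subset_range.mpr hN) fun j _ hj => ?_
  rw [h j (by simpa using hj), smul_zero]

namespace Frame

variable (F : Frame E)

/-- Allowed displacement directions at level `j` over the base point `(x, y)`. -/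
def Allowed (j : ℕ) (x y : ℝ) (d : E) : Prop :=
  d = 0 ∨ d = F.e (⌊x / (wid j * amp j)⌋₊ % nCol j) ∨ d = F.e (⌊y / amp j⌋₊ % nCol j)

/-- Coordinates of a point of the set. -/
structure Rep where
  x : ℝ
  y : ℝ
  N : ℕ
  d : ℕ → E
  x_mem : 0 ≤ x ∧ x ≤ 1
  y_mem : 0 ≤ y ∧ y ≤ 1
  supp : ∀ j, N ≤ j → d j = 0
  allowed : ∀ j, F.Allowed j x y (d j)

variable {F}

/-- The point with the given coordinates. -/
noncomputable def Rep.pt (P : F.Rep) : E :=
  P.x • F.u + P.y • F.v + ∑ j ∈ range P.N, amp j • P.d j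

theorem Rep.d_le (P : F.Rep) (j : ℕ) : ‖P.d j‖ ≤ 1 := by
  rcases P.allowed j with h | h | h <;> rw [h]
  · simp
  · exact F.e_le _
  · exact F.e_le _

theorem Rep.dd_le (P Q : F.Rep) (j : ℕ) : ‖P.d j - Q.d j‖ ≤ 2 := by
  linarith [norm_sub_le (P.d j) (Q.d j), P.d_le j, Q.d_le j]

theorem Rep.pt_sub (P Q : F.Rep) : P.pt - Q.pt = (P.x - Q.x) • F.u + (P.y - Q.y) • F.v
    + ∑ j ∈ range (max P.N Q.N), amp j • (P.d j - Q.d j) := by
  simp only [Rep.pt, smul_sub, sum_sub_distrib, sum_ext P.d P.supp (le_max_left _ _),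
    sum_ext Q.d Q.supp (le_max_right _ _)]
  module

theorem Rep.sep_d (P Q : F.Rep) (j : ℕ) (h : P.d j ≠ Q.d j) (α β : ℝ) :
    1 / 2 ≤ ‖α • F.u + β • F.v + (P.d j - Q.d j)‖ := by
  have h1 : P.d j = 0 ∨ ∃ a, P.d j = F.e a := by
    rcases P.allowed j with h | h | h
    exacts [Or.inl h, Or.inr ⟨_, h⟩, Or.inr ⟨_, h⟩]
  have h2 : Q.d j = 0 ∨ ∃ a, Q.d j = F.e a := by
    rcases Q.allowed j with h | h | h
    exacts [Or.inl h, Or.inr ⟨_, h⟩, Or.inr ⟨_, h⟩]
  rcases h1 with h1 | ⟨a, h1⟩ <;> rcases h2 with h2 | ⟨b, h2⟩ <;> rw [h1, h2] at h ⊢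
  · exact absurd rfl h
  · have := F.sep0 (-α) (-β) b
    have e : α • F.u + β • F.v + (0 - F.e b) = -(-α • F.u + -β • F.v + F.e b) := by module
    rwa [e, norm_neg]
  · simpa using F.sep0 α β a
  · exact F.sep α β a b fun hab => h (by rw [hab])

theorem Rep.amp_le (P Q : F.Rep) (j : ℕ) (h : P.d j ≠ Q.d j) : amp j ≤ 4 * ‖P.pt - Q.pt‖ := by
  classical
  have hex : ∃ j, P.d j ≠ Q.d j := ⟨j, h⟩
  set j₀ := Nat.find hex with hj₀
  have h0 : P.d j₀ ≠ Q.d j₀ := Nat.find_spec hex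
  have hle : j₀ ≤ j := Nat.find_min' hex h
  have hN : j₀ ∈ range (max P.N Q.N) := by
    rw [mem_range]
    by_contra hc
    push Not at hc
    exact h0 (by rw [P.supp _ (le_trans (le_max_left _ _) hc),
      Q.supp _ (le_trans (le_max_right _ _) hc)])
  set c : ℕ → E := fun i => if i = j₀ then 0 else P.d i - Q.d i with hc
  have hsplit : ∑ i ∈ range (max P.N Q.N), amp i • (P.d i - Q.d i)
      = amp j₀ • (P.d j₀ - Q.d j₀) + ∑ i ∈ range (max P.N Q.N), amp i • c i := by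
    rw [← add_sum_erase _ _ hN, ← add_sum_erase _ (fun i => amp i • c i) hN]
    simp only [hc, if_true, smul_zero, zero_add]
    congr 1
    exact sum_congr rfl fun i hi => by rw [if_neg (ne_of_mem_erase hi)]
  have ht := tail c (fun i => by
      simp only [hc]; split_ifs
      · simp
      · exact P.dd_le Q i) (j₀ + 1) (fun i hi => by
      simp only [hc]; split_ifs with h'
      · rfl
      · have : ¬ (P.d i ≠ Q.d i) := Nat.find_min hex (by omega)
        rw [not_not.mp this, sub_self]) (max P.N Q.N)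
  have hρ := amp_pos j₀
  have hs := P.sep_d Q j₀ h0 ((P.x - Q.x) / amp j₀) ((P.y - Q.y) / amp j₀)
  have e1 : (P.x - Q.x) • F.u + (P.y - Q.y) • F.v + amp j₀ • (P.d j₀ - Q.d j₀)
      = amp j₀ • (((P.x - Q.x) / amp j₀) • F.u + ((P.y - Q.y) / amp j₀) • F.v
        + (P.d j₀ - Q.d j₀)) := by
    rw [smul_add, smul_add, smul_smul, smul_smul, mul_div_cancel₀ _ hρ.ne',
      mul_div_cancel₀ _ hρ.ne']
  have e2 : (P.x - Q.x) • F.u + (P.y - Q.y) • F.v + amp j₀ • (P.d j₀ - Q.d j₀)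
      = (P.pt - Q.pt) - ∑ i ∈ range (max P.N Q.N), amp i • c i := by
    rw [P.pt_sub Q, hsplit]; abel
  have e3 := norm_sub_le (P.pt - Q.pt) (∑ i ∈ range (max P.N Q.N), amp i • c i)
  rw [← e2, e1, norm_smul, Real.norm_of_nonneg hρ.le] at e3
  rw [amp_succ] at ht
  have := mul_le_mul_of_nonneg_left hs hρ.le
  linarith [amp_anti hle]

theorem Rep.coord_le (P Q : F.Rep) :
    |P.x - Q.x| ≤ 60 * ‖P.pt - Q.pt‖ ∧ |P.y - Q.y| ≤ 60 * ‖P.pt - Q.pt‖ := by
  have ht := tail' (fun j => P.d j - Q.d j) (P.dd_le Q) (τ := 4 * ‖P.pt - Q.pt‖) (by positivity)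
    (fun j hj => by
      by_contra hc
      exact absurd (P.amp_le Q j (sub_ne_zero.mp hc)) (not_le.mpr hj)) (max P.N Q.N)
  have e2 : (P.x - Q.x) • F.u + (P.y - Q.y) • F.v
      = (P.pt - Q.pt) - ∑ i ∈ range (max P.N Q.N), amp i • (P.d i - Q.d i) := by
    rw [P.pt_sub Q]; abel
  have e3 := norm_sub_le (P.pt - Q.pt) (∑ i ∈ range (max P.N Q.N), amp i • (P.d i - Q.d i))
  rw [← e2] at e3
  have := F.coord (P.x - Q.x) (P.y - Q.y)
  have h0 := norm_nonneg (P.pt - Q.pt)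
  constructor <;> linarith [this.1, this.2]

theorem base_le (F : Frame E) (α β : ℝ) : ‖α • F.u + β • F.v‖ ≤ |α| + |β| := by
  refine (norm_add_le _ _).trans ?_
  rw [norm_smul, norm_smul, Real.norm_eq_abs, Real.norm_eq_abs]
  linarith [mul_le_of_le_one_right (abs_nonneg α) F.u_le,
    mul_le_of_le_one_right (abs_nonneg β) F.v_le]

theorem Rep.dist_le (P Q : F.Rep) {τ : ℝ} (hτ : 0 ≤ τ) (h : ∀ j, τ < amp j → P.d j = Q.d j) :
    ‖P.pt - Q.pt‖ ≤ |P.x - Q.x| + |P.y - Q.y| + 32 / 15 * τ := by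
  have ht := tail' (fun j => P.d j - Q.d j) (P.dd_le Q) hτ
    (fun j hj => by rw [h j hj, sub_self]) (max P.N Q.N)
  rw [P.pt_sub Q]
  refine (norm_add_le _ _).trans ?_
  linarith [F.base_le (P.x - Q.x) (P.y - Q.y)]

end Frame

end Vale.Agent.P208
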