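import Vale.Agent.P208.Tools

/-!
The lexicographic slope argument: no bi-Lipschitz map on a set with coloured row and column sheets.
-/

namespace Vale.Agent.P208

open Finset MeasureTheory

/-- Abstract data of the argument. -/
structure Setup (E W : Type*) [NormedAddCommGroup E] [NormedSpace ℝ E] [NormedAddCommGroup W] where
  g : E → ℝ → ℝ → W
  e : ℕ → E
  Val : E → ℝ → ℝ → ℝ → ℝ → Prop
  α : ℝ
  α_pos : 0 < α
  lip : ∀ z z' x x' y y', ‖g z x y - g z' x' y'‖ ≤ |x - x'| + |y - y'| + ‖z - z'‖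
  e_le : ∀ a, ‖e a‖ ≤ 1
  e_sep : ∀ a b, a ≠ b → 1 / 2 ≤ ‖e a - e b‖
  pos : ∀ {z x y A B}, Val z x y A B → 0 < A ∧ 0 < B ∧ 0 ≤ x ∧ 0 ≤ y
  mono : ∀ {z x y A B x' y' A' B'}, Val z x y A B → x ≤ x' → x' + A' ≤ x + A → y ≤ y' →
    y' + B' ≤ y + B → 0 < A' → 0 < B' → Val z x' y' A' B'
  nonempty : ∃ z x y A B, Val z x y A B
  low : ∀ {z z' x y A B A' B'}, Val z x y A B → Val z' x y A' B' →
    α * ‖z - z'‖ ≤ ‖g z x y - g z' x y‖
  ext : ∀ {z x y A B}, Val z x y A B → ∀ m n : ℕ, 0 < m → 0 < n → ∀ ε > 0, ∃ ρ : ℝ, 0 < ρ ∧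
    ρ ≤ ε ∧
    (∀ x' y' A' B' (i : ℕ), x ≤ x' → x' + A' ≤ x + A → y ≤ y' → y' + B' ≤ y + B → 0 < A' →
      0 < B' → i * (n * ρ) ≤ x' → x' + A' ≤ (i + 1) * (n * ρ) →
      Val (z + ρ • e (i % m)) x' y' A' B') ∧
    (∀ x' y' A' B' (l : ℕ), x ≤ x' → x' + A' ≤ x + A → y ≤ y' → y' + B' ≤ y + B → 0 < A' →
      0 < B' → l * ρ ≤ y' → y' + B' ≤ (l + 1) * ρ → Val (z + ρ • e (l % m)) x' y' A' B')

namespace Setup

variable {E W : Type*} [NormedAddCommGroup E] [NormedSpace ℝ E] [NormedAddCommGroup W]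
  (S : Setup E W)

/-- Squared horizontal increment along the bottom edge. -/
noncomputable def dH (z : E) (x y A : ℝ) : ℝ := ‖S.g z (x + A) y - S.g z x y‖ ^ 2

/-- Squared vertical increment. -/
noncomputable def dV (z : E) (x y B : ℝ) : ℝ := ‖S.g z x (y + B) - S.g z x y‖ ^ 2

/-- Integrated squared vertical increment. -/
noncomputable def J (z : E) (x y A B : ℝ) : ℝ := ∫ ξ in (0 : ℝ)..A, S.dV z (x + ξ) y B

theorem nH_le (z : E) (x y : ℝ) {A : ℝ} (hA : 0 ≤ A) : ‖S.g z (x + A) y - S.g z x y‖ ≤ A := by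
  simpa [abs_of_nonneg hA] using S.lip z z (x + A) x y y

theorem nV_le (z : E) (x y : ℝ) {B : ℝ} (hB : 0 ≤ B) : ‖S.g z x (y + B) - S.g z x y‖ ≤ B := by
  simpa [abs_of_nonneg hB] using S.lip z z x x (y + B) y

theorem dH_le (z : E) (x y : ℝ) {A : ℝ} (hA : 0 ≤ A) : S.dH z x y A ≤ A ^ 2 :=
  pow_le_pow_left₀ (norm_nonneg _) (S.nH_le z x y hA) 2

theorem dV_le (z : E) (x y : ℝ) {B : ℝ} (hB : 0 ≤ B) : S.dV z x y B ≤ B ^ 2 :=
  pow_le_pow_left₀ (norm_nonneg _) (S.nV_le z x y hB) 2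

theorem cont (z : E) (y : ℝ) : Continuous fun x => S.g z x y := by
  refine LipschitzWith.continuous (K := 1) (LipschitzWith.of_dist_le_mul fun x x' => ?_)
  simpa [dist_eq_norm] using S.lip z z x x' y y

theorem cont_dV (z : E) (y B : ℝ) : Continuous fun x => S.dV z x y B :=
  (((S.cont z (y + B)).sub (S.cont z y)).norm).pow 2

theorem cont_dV' (z : E) (x y B : ℝ) : Continuous fun ξ => S.dV z (x + ξ) y B :=
  (S.cont_dV z y B).comp (continuous_const.add continuous_id)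

theorem J_nonneg (z : E) (x y : ℝ) {A : ℝ} (B : ℝ) (hA : 0 ≤ A) : 0 ≤ S.J z x y A B :=
  intervalIntegral.integral_nonneg hA fun _ _ => sq_nonneg _

theorem J_le (z : E) (x y : ℝ) {A B : ℝ} (hA : 0 ≤ A) (hB : 0 ≤ B) :
    S.J z x y A B ≤ A * B ^ 2 := by
  have := intervalIntegral.integral_mono_on (μ := volume) hA
    ((S.cont_dV' z x y B).intervalIntegrable 0 A) (continuous_const.intervalIntegrable 0 A)
    (g := fun _ => B ^ 2) (fun ξ _ => S.dV_le z (x + ξ) y hB)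
  simpa [J] using this

theorem J_eq (z : E) (x y A B : ℝ) :
    S.J z x y A B = ∫ ξ in x..(x + A), S.dV z ξ y B := by
  simp only [J]
  rw [intervalIntegral.integral_comp_add_left (fun ξ => S.dV z ξ y B) x, add_zero]

theorem J_add (z : E) (x y A A' B : ℝ) :
    S.J z x y (A + A') B = S.J z x y A B + S.J z (x + A) y A' B := by
  rw [J_eq, J_eq, J_eq, intervalIntegral.integral_add_adjacent_intervals
    ((S.cont_dV z y B).intervalIntegrable _ _) ((S.cont_dV z y B).intervalIntegrable _ _),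
    add_assoc]

theorem J_sum (z : E) (x y t B : ℝ) (N : ℕ) :
    S.J z x y (N * t) B = ∑ i ∈ range N, S.J z (x + i * t) y t B := by
  induction N with
  | zero => simp [J]
  | succ N ih => rw [sum_range_succ, ← ih, ← J_add]; push_cast; ring_nf

theorem J_trim (z : E) {x y A B a t : ℝ} (N : ℕ) (hB : 0 ≤ B) (h1 : x ≤ a)
    (h2 : a + N * t ≤ x + A) :
    S.J z x y A B ≤ ∑ i ∈ range N, S.J z (a + i * t) y t B + (A - N * t) * B ^ 2 := by
  have e1 : A = (a - x) + (N * t + (x + A - a - N * t)) := by ring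
  have e2 : x + (a - x) = a := by ring
  have b1 := S.J_le z x y (A := a - x) (by linarith) hB
  have b2 := S.J_le z (a + N * t) y (A := x + A - a - N * t) (by linarith) hB
  calc S.J z x y A B = S.J z x y ((a - x) + (N * t + (x + A - a - N * t))) B := by rw [← e1]
    _ = _ := by rw [J_add, J_add, e2, J_sum]
    _ ≤ _ := by nlinarith

theorem exists_lam : ∃ Λ : ℝ, 0 ≤ Λ ∧ (∀ z x y A B, S.Val z x y A B → S.dH z x y A ≤ Λ * A ^ 2) ∧
    ∀ δ > 0, ∃ z x y A B, S.Val z x y A B ∧ (Λ - δ) * A ^ 2 ≤ S.dH z x y A ∧ B ≤ δ * A := by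
  set T : Set ℝ := {c | ∃ z x y A B, S.Val z x y A B ∧ c = S.dH z x y A / A ^ 2} with hT
  obtain ⟨z, x, y, A, B, hv⟩ := S.nonempty
  have hne : S.dH z x y A / A ^ 2 ∈ T := ⟨z, x, y, A, B, hv, rfl⟩
  have hb : BddAbove T := ⟨1, by
    rintro _ ⟨z, x, y, A, B, hv, rfl⟩
    have := (S.pos hv).1
    rw [div_le_one (by positivity)]
    exact S.dH_le z x y this.le⟩
  refine ⟨sSup T, le_trans (div_nonneg (sq_nonneg _) (sq_nonneg _)) (le_csSup hb hne), ?_, ?_⟩
  · intro z x y A B hv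
    have hA := (S.pos hv).1
    have := le_csSup hb (show S.dH z x y A / A ^ 2 ∈ T from ⟨z, x, y, A, B, hv, rfl⟩)
    rwa [div_le_iff₀ (by positivity)] at this
  · intro δ hδ
    obtain ⟨_, ⟨z, x, y, A, B, hv, rfl⟩, hc⟩ :=
      exists_lt_of_lt_csSup ⟨_, hne⟩ (show sSup T - δ < sSup T by linarith)
    have hA := (S.pos hv).1
    have hB := (S.pos hv).2.1
    rw [lt_div_iff₀ (by positivity)] at hc
    exact ⟨z, x, y, A, min B (δ * A), S.mono hv le_rfl le_rfl le_rfl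
      (by linarith [min_le_left B (δ * A)]) hA (lt_min hB (by positivity)), hc.le,
      min_le_right _ _⟩

variable [InnerProductSpace ℝ W]

theorem hor_bound {Λ θ ρ t x y A B a y' : ℝ} {z z' : E} (N : ℕ) (hΛ : 0 ≤ Λ) (hA : 0 < A)
    (ht : 0 < t) (hgood : (Λ - θ) * A ^ 2 ≤ S.dH z x y A) (hB : B ≤ θ * A) (hρ : ρ ≤ θ * A)
    (hz : ‖z' - z‖ ≤ ρ) (h1 : x ≤ a) (h2 : a + N * t ≤ x + A) (h3 : A - N * t ≤ θ * A)
    (hy1 : y ≤ y') (hy2 : y' ≤ y + B) :
    ∑ i ∈ range N, ‖S.g z' (a + i * t + t) y' - S.g z' (a + i * t) y'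
        - (t / A) • (S.g z (x + A) y - S.g z x y)‖ ^ 2
      ≤ ∑ i ∈ range N, S.dH z' (a + i * t) y' t - N * t ^ 2 * Λ + 11 * θ * A * t := by
  have hN : N * t ≤ A := by linarith
  have herr : ‖S.g z' (a + (N : ℕ) * t) y' - S.g z' (a + ((0 : ℕ) : ℝ) * t) y'
      - (S.g z (x + A) y - S.g z x y)‖ ≤ 5 * θ * A := by
    have e1 := S.lip z' z (a + N * t) (x + A) y' y
    have e2 := S.lip z' z a x y' y
    rw [abs_of_nonpos (by linarith), abs_of_nonneg (by linarith)] at e1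
    rw [abs_of_nonneg (by linarith), abs_of_nonneg (by linarith)] at e2
    have e3 : S.g z' (a + (N : ℕ) * t) y' - S.g z' (a + ((0 : ℕ) : ℝ) * t) y'
        - (S.g z (x + A) y - S.g z x y)
        = (S.g z' (a + N * t) y' - S.g z (x + A) y) - (S.g z' a y' - S.g z x y) := by
      simp only [Nat.cast_zero, zero_mul, add_zero]; abel
    rw [e3]
    refine (norm_sub_le _ _).trans ?_
    linarith
  have := chain_bound (fun i : ℕ => S.g z' (a + i * t) y') (S.g z (x + A) y - S.g z x y) N hA ht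
    hN (S.nH_le z x y hA.le) herr
  have e4 : ∀ i : ℕ, a + ((i + 1 : ℕ) : ℝ) * t = a + i * t + t := fun i => by push_cast; ring
  simp only [e4] at this
  have h5 : t / A * ((Λ - θ) * A ^ 2) ≤ t / A * S.dH z x y A :=
    mul_le_mul_of_nonneg_left hgood (by positivity)
  have h6 : t / A * ((Λ - θ) * A ^ 2) = t * A * Λ - θ * A * t := by field_simp
  have h7 : N * t ^ 2 * Λ ≤ t * A * Λ := by
    apply mul_le_mul_of_nonneg_right _ hΛ
    nlinarith
  unfold dH at h5 ⊢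
  linarith

theorem ver_bound {θ ρ s x y B b : ℝ} {z z' : E} (N : ℕ) (hB : 0 < B)
    (hs : 0 < s) (hρ : ρ ≤ θ * B)
    (hz : ‖z' - z‖ ≤ ρ) (h1 : y ≤ b) (h2 : b + N * s ≤ y + B) (h3 : B - N * s ≤ θ * B) :
    ∑ l ∈ range N, ‖S.g z' x (b + l * s + s) - S.g z' x (b + l * s)
        - (s / B) • (S.g z x (y + B) - S.g z x y)‖ ^ 2
      ≤ ∑ l ∈ range N, S.dV z' x (b + l * s) s - s / B * S.dV z x y B + 6 * θ * B * s := by
  have hN : N * s ≤ B := by linarith
  have herr : ‖S.g z' x (b + (N : ℕ) * s) - S.g z' x (b + ((0 : ℕ) : ℝ) * s)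
      - (S.g z x (y + B) - S.g z x y)‖ ≤ 3 * θ * B := by
    have e1 := S.lip z' z x x (b + N * s) (y + B)
    have e2 := S.lip z' z x x b y
    rw [sub_self, abs_zero, abs_of_nonpos (by linarith)] at e1
    rw [sub_self, abs_zero, abs_of_nonneg (by linarith)] at e2
    have e3 : S.g z' x (b + (N : ℕ) * s) - S.g z' x (b + ((0 : ℕ) : ℝ) * s)
        - (S.g z x (y + B) - S.g z x y)
        = (S.g z' x (b + N * s) - S.g z x (y + B)) - (S.g z' x b - S.g z x y) := by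
      simp only [Nat.cast_zero, zero_mul, add_zero]; abel
    rw [e3]
    refine (norm_sub_le _ _).trans ?_
    linarith
  have := chain_bound (fun l : ℕ => S.g z' x (b + l * s)) (S.g z x (y + B) - S.g z x y) N hB hs
    hN (S.nV_le z x y hB.le) herr
  have e4 : ∀ l : ℕ, b + ((l + 1 : ℕ) : ℝ) * s = b + l * s + s := fun i => by push_cast; ring
  simp only [e4] at this
  unfold dV
  linarith

omit [InnerProductSpace ℝ W] in
theorem dH_shift {ρ t x y : ℝ} {z z' : E} (ht : 0 ≤ t) (hz : ‖z' - z‖ ≤ ρ) :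
    S.dH z x y t - 4 * ρ * t ≤ S.dH z' x y t := by
  have e1 := S.lip z' z (x + t) (x + t) y y
  have e2 := S.lip z' z x x y y
  simp only [sub_self, abs_zero, zero_add] at e1 e2
  have e3 : S.g z (x + t) y - S.g z x y = (S.g z' (x + t) y - S.g z' x y)
      - (S.g z' (x + t) y - S.g z (x + t) y) + (S.g z' x y - S.g z x y) := by abel
  have e4 : ‖S.g z (x + t) y - S.g z x y‖ ≤ ‖S.g z' (x + t) y - S.g z' x y‖ + 2 * ρ := by
    rw [e3]
    have := norm_add_le ((S.g z' (x + t) y - S.g z' x y)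
      - (S.g z' (x + t) y - S.g z (x + t) y)) (S.g z' x y - S.g z x y)
    have := norm_sub_le (S.g z' (x + t) y - S.g z' x y) (S.g z' (x + t) y - S.g z (x + t) y)
    linarith
  have e5 := S.nH_le z x y ht
  have e6 := norm_nonneg (S.g z (x + t) y - S.g z x y)
  have e7 := norm_nonneg (S.g z' (x + t) y - S.g z' x y)
  have e8 : 0 ≤ ρ := (norm_nonneg _).trans hz
  unfold dH
  set p := ‖S.g z (x + t) y - S.g z x y‖
  set q := ‖S.g z' (x + t) y - S.g z' x y‖
  rcases le_total p q with h | h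
  · nlinarith
  · nlinarith

omit [InnerProductSpace ℝ W] in
theorem J_cell {Λ δ' G t s x y : ℝ} {z : E} (hδ : 0 < δ') (hG0 : 0 ≤ G)
    (hΛ : ∀ z x y A B, S.Val z x y A B → S.dH z x y A ≤ Λ * A ^ 2)
    (hG : ∀ z x y A B, S.Val z x y A B → (Λ - δ') * A ^ 2 ≤ S.dH z x y A → B ≤ δ' * A →
      S.J z x y A B ≤ G * (A * B ^ 2))
    (hv : S.Val z x y t s) (hthin : s ≤ δ' * t) :
    S.J z x y t s ≤ G * (t * s ^ 2) + s ^ 2 / (δ' * t) * (Λ * t ^ 2 - S.dH z x y t) := by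
  have ht := (S.pos hv).1
  have hs := (S.pos hv).2.1
  have h1 := hΛ z x y t s hv
  have hq : 0 < s ^ 2 / (δ' * t) := by positivity
  by_cases h : (Λ - δ') * t ^ 2 ≤ S.dH z x y t
  · have := hG z x y t s hv h hthin
    have : 0 ≤ s ^ 2 / (δ' * t) * (Λ * t ^ 2 - S.dH z x y t) :=
      mul_nonneg hq.le (by linarith)
    linarith
  · push Not at h
    have h2 := S.J_le z x y ht.le hs.le
    have h3 : s ^ 2 / (δ' * t) * (δ' * t ^ 2) ≤ s ^ 2 / (δ' * t) * (Λ * t ^ 2 - S.dH z x y t) :=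
      mul_le_mul_of_nonneg_left (by linarith) hq.le
    have h4 : s ^ 2 / (δ' * t) * (δ' * t ^ 2) = t * s ^ 2 := by field_simp
    have h5 : 0 ≤ G * (t * s ^ 2) := by positivity
    linarith

end Setup

end Vale.Agent.P208
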