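import Vale.Agent.P208.Construct

/-!
The constructed set is doubling with a universal constant, and its closure is compact.
-/

namespace Vale.Agent.P208

open Finset Metric

theorem cover_of_code {α κ : Type*} [PseudoMetricSpace α] (Y : Set α) (T : Finset κ)
    (R : α → κ → Prop) {s : ℝ} (h1 : ∀ q ∈ Y, ∃ k ∈ T, R q k)
    (h2 : ∀ q ∈ Y, ∀ q' ∈ Y, ∀ k, R q k → R q' k → dist q q' < s) :
    ∃ C : Finset α, (C : Set α) ⊆ Y ∧ C.card ≤ T.card ∧ Y ⊆ ⋃ c ∈ C, ball c s := by
  classical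
  rcases Y.eq_empty_or_nonempty with rfl | ⟨q₀, hq₀⟩
  · exact ⟨∅, by simp, by simp, by simp⟩
  have : ∀ k : κ, ∃ c ∈ Y, (∃ q ∈ Y, R q k) → R c k := by
    intro k
    by_cases h : ∃ q ∈ Y, R q k
    · obtain ⟨q, hq, hR⟩ := h
      exact ⟨q, hq, fun _ => hR⟩
    · exact ⟨q₀, hq₀, fun h' => absurd h' h⟩
  choose rep hrep using this
  refine ⟨T.image rep, ?_, card_image_le, fun q hq => ?_⟩
  · intro c hc
    obtain ⟨k, -, rfl⟩ := mem_image.mp hc
    exact (hrep k).1
  · obtain ⟨k, hk, hR⟩ := h1 q hq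
    simp only [Set.mem_iUnion, mem_ball]
    exact ⟨rep k, mem_image_of_mem _ hk,
      h2 q hq _ (hrep k).1 k hR ((hrep k).2 ⟨q, hq, hR⟩)⟩

/-- Window of integer parts. -/
noncomputable def win (x₀ τ : ℝ) : Finset ℕ := Icc (⌊x₀ / τ⌋₊ - 3841) (⌊x₀ / τ⌋₊ + 3841)

theorem card_win (x₀ τ : ℝ) : (win x₀ τ).card ≤ 7683 := by
  simp only [win, Nat.card_Icc]
  omega

theorem mem_win {x x₀ τ : ℝ} (hτ : 0 < τ) (hx : 0 ≤ x) (hx₀ : 0 ≤ x₀) (h : |x - x₀| ≤ 3840 * τ) :
    ⌊x / τ⌋₊ ∈ win x₀ τ := by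
  have h1 : x / τ ≤ x₀ / τ + 3840 := by
    rw [div_add' _ _ _ hτ.ne', div_le_div_iff_of_pos_right hτ]
    linarith [(abs_le.mp h).2]
  have h2 : x₀ / τ ≤ x / τ + 3840 := by
    rw [div_add' _ _ _ hτ.ne', div_le_div_iff_of_pos_right hτ]
    linarith [(abs_le.mp h).1]
  have a1 : ⌊x / τ⌋₊ ≤ ⌊x₀ / τ + (3840 : ℕ)⌋₊ := Nat.floor_le_floor (by exact_mod_cast h1)
  have a2 : ⌊x₀ / τ⌋₊ ≤ ⌊x / τ + (3840 : ℕ)⌋₊ := Nat.floor_le_floor (by exact_mod_cast h2)
  rw [Nat.floor_add_natCast (div_nonneg hx₀ hτ.le)] at a1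
  rw [Nat.floor_add_natCast (div_nonneg hx hτ.le)] at a2
  simp only [win, mem_Icc]
  omega

theorem abs_lt_of_floor_eq {x x' τ : ℝ} (hτ : 0 < τ) (hx : 0 ≤ x) (hx' : 0 ≤ x')
    (h : ⌊x / τ⌋₊ = ⌊x' / τ⌋₊) : |x - x'| < τ := by
  have a1 := Nat.floor_le (div_nonneg hx hτ.le)
  have a2 := Nat.floor_le (div_nonneg hx' hτ.le)
  have a3 := Nat.lt_floor_add_one (x / τ)
  have a4 := Nat.lt_floor_add_one (x' / τ)
  rw [h] at a1 a3
  have b1 : x / τ - x' / τ < 1 := by linarith
  have b2 : x' / τ - x / τ < 1 := by linarith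
  rw [← sub_div, div_lt_one hτ] at b1 b2
  rw [abs_lt]
  constructor <;> linarith

variable {E : Type*} [NormedAddCommGroup E] [NormedSpace ℝ E]

namespace Frame

variable (F : Frame E)

/-- The set. -/
def carrier : Set E := Set.range (Rep.pt : F.Rep → E)

open Classical in
/-- Possible displacement directions at level `j` near the base point `(x₀, y₀)`. -/
noncomputable def dirs (j : ℕ) (x₀ y₀ : ℝ) : Finset E :=
  insert 0 ((win x₀ (wid j * amp j)).image (fun i => F.e (i % nCol j))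
    ∪ (win y₀ (amp j)).image (fun i => F.e (i % nCol j)))

theorem card_dirs (j : ℕ) (x₀ y₀ : ℝ) : (F.dirs j x₀ y₀).card ≤ 15367 := by
  classical
  unfold dirs
  refine (card_insert_le _ _).trans ?_
  have h1 := card_union_le ((win x₀ (wid j * amp j)).image (fun i => F.e (i % nCol j)))
    ((win y₀ (amp j)).image (fun i => F.e (i % nCol j)))
  have h2 := (card_image_le (f := fun i => F.e (i % nCol j))).trans (card_win x₀ (wid j * amp j))
  have h3 := (card_image_le (f := fun i => F.e (i % nCol j))).trans (card_win y₀ (amp j))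
  convert Nat.succ_le_succ (h1.trans (add_le_add h2 h3))

variable {F}

theorem mem_dirs (P Q : F.Rep) {r : ℝ} (hr : ‖Q.pt - P.pt‖ ≤ r) (j : ℕ) :
    (if r / 64 < amp j then Q.d j else 0) ∈ F.dirs j P.x P.y := by
  classical
  unfold dirs
  split_ifs with h
  · have hc := Q.coord_le P
    have hw : (1 : ℝ) ≤ wid j := by exact_mod_cast Nat.succ_le_succ (Nat.zero_le _)
    have h1 : amp j ≤ wid j * amp j := le_mul_of_one_le_left (amp_pos j).le hw
    rcases Q.allowed j with h' | h' | h' <;> rw [h']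
    · exact mem_insert_self _ _
    · refine mem_insert_of_mem (mem_union_left _ (mem_image_of_mem (fun i => F.e (i % nCol j))
        (mem_win (by linarith [amp_pos j]) Q.x_mem.1 P.x_mem.1 (by linarith [hc.1]))))
    · refine mem_insert_of_mem (mem_union_right _ (mem_image_of_mem (fun i => F.e (i % nCol j))
        (mem_win (amp_pos j) Q.y_mem.1 P.y_mem.1 (by linarith [hc.2]))))
  · exact mem_insert_self _ _

variable (F)

theorem cover (p : E) (hp : p ∈ F.carrier) {r : ℝ} (hr : 0 < r) :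
    ∃ C : Finset E, (C : Set E) ⊆ F.carrier ∧ C.card ≤ 7683 * (7683 * (15367 * 15367)) ∧
      F.carrier ∩ closedBall p r ⊆ ⋃ c ∈ C, ball c (r / 8) := by
  classical
  obtain ⟨P, rfl⟩ := hp
  have hex := exists_amp_le (show 0 < 4 * r by positivity)
  set j₁ := Nat.find hex with hj₁
  have hτ : 0 < r / 64 := by positivity
  obtain ⟨C, hC1, hC2, hC3⟩ := cover_of_code (F.carrier ∩ closedBall P.pt r)
    (win P.x (r / 64) ×ˢ win P.y (r / 64) ×ˢ F.dirs j₁ P.x P.y ×ˢ F.dirs (j₁ + 1) P.x P.y)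
    (fun q k => ∃ Q : F.Rep, Q.pt = q ∧ k = (⌊Q.x / (r / 64)⌋₊, ⌊Q.y / (r / 64)⌋₊,
      if r / 64 < amp j₁ then Q.d j₁ else 0, if r / 64 < amp (j₁ + 1) then Q.d (j₁ + 1) else 0))
    (s := r / 8) (by
      rintro _ ⟨⟨Q, rfl⟩, hq⟩
      rw [mem_closedBall, dist_eq_norm] at hq
      have hc := Q.coord_le P
      refine ⟨_, ?_, Q, rfl, rfl⟩
      simp only [mem_product]
      exact ⟨mem_win hτ Q.x_mem.1 P.x_mem.1 (by linarith [hc.1]),
        mem_win hτ Q.y_mem.1 P.y_mem.1 (by linarith [hc.2]), mem_dirs P Q hq _,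
        mem_dirs P Q hq _⟩) (by
      rintro _ ⟨-, hq⟩ _ ⟨-, hq'⟩ k ⟨Q, rfl, rfl⟩ ⟨Q', rfl, hk⟩
      rw [mem_closedBall, dist_eq_norm] at hq hq'
      simp only [Prod.mk.injEq] at hk
      obtain ⟨k1, k2, k3, k4⟩ := hk
      have a1 := abs_lt_of_floor_eq hτ Q.x_mem.1 Q'.x_mem.1 k1
      have a2 := abs_lt_of_floor_eq hτ Q.y_mem.1 Q'.y_mem.1 k2
      have a3 := Q.dist_le Q' hτ.le (fun j hj => by
        rcases lt_trichotomy j j₁ with h | h | h
        · have hbig : 4 * r < amp j := not_le.mp (Nat.find_min hex h)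
          have b1 : Q.d j = P.d j := by
            by_contra hc
            linarith [Q.amp_le P j hc]
          have b2 : Q'.d j = P.d j := by
            by_contra hc
            linarith [Q'.amp_le P j hc]
          rw [b1, b2]
        · rw [h] at hj ⊢
          simpa only [if_pos hj] using k3
        · rcases (Nat.succ_le_of_lt h).eq_or_lt with h' | h'
          · rw [← h'] at hj ⊢
            simpa only [if_pos hj] using k4
          · have b1 : amp j ≤ amp (j₁ + 1 + 1) := amp_anti h'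
            rw [amp_succ, amp_succ] at b1
            have b2 : amp j₁ ≤ 4 * r := Nat.find_spec hex
            linarith)
      rw [dist_eq_norm]
      linarith)
  refine ⟨C, hC1.trans Set.inter_subset_left, hC2.trans ?_, hC3⟩
  simp only [card_product]
  exact Nat.mul_le_mul (card_win _ _) (Nat.mul_le_mul (card_win _ _)
    (Nat.mul_le_mul (F.card_dirs _ _ _) (F.card_dirs _ _ _)))

theorem cover_closure (p : E) (hp : p ∈ closure F.carrier) {r : ℝ} (hr : 0 < r) :
    ∃ C : Finset E, (C : Set E) ⊆ closure F.carrier ∧ C.card ≤ 7683 * (7683 * (15367 * 15367)) ∧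
      closure F.carrier ∩ closedBall p r ⊆ ⋃ c ∈ C, ball c (r / 2) := by
  obtain ⟨p', hp', hpp⟩ := Metric.mem_closure_iff.mp hp (r / 2) (by positivity)
  obtain ⟨C, h1, h2, h3⟩ := F.cover p' hp' (show 0 < 2 * r by positivity)
  refine ⟨C, h1.trans subset_closure, h2, ?_⟩
  rintro q ⟨hq, hq2⟩
  obtain ⟨q', hq', hqq⟩ := Metric.mem_closure_iff.mp hq (r / 8) (by positivity)
  rw [mem_closedBall] at hq2
  have : q' ∈ F.carrier ∩ closedBall p' (2 * r) := ⟨hq', by
    rw [mem_closedBall]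
    linarith [dist_triangle4 q' q p p', dist_comm q q']⟩
  have := h3 this
  simp only [Set.mem_iUnion, mem_ball] at this ⊢
  obtain ⟨c, hc, hc'⟩ := this
  exact ⟨c, hc, by linarith [dist_triangle q q' c]⟩

/-- The origin. -/
def origin : F.Rep := ⟨0, 0, 0, fun _ => 0, by simp, by simp, fun _ _ => rfl, fun _ => Or.inl rfl⟩

theorem totallyBounded_carrier : TotallyBounded F.carrier := by
  have key : ∀ k : ℕ, ∃ t : Set E, t.Finite ∧ t ⊆ F.carrier ∧
      F.carrier ⊆ ⋃ c ∈ t, ball c (5 * (1 / 8) ^ k) := by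
    intro k
    induction k with
    | zero =>
      refine ⟨{F.origin.pt}, Set.finite_singleton _, by simp [carrier], ?_⟩
      rintro _ ⟨Q, rfl⟩
      have := Q.dist_le F.origin zero_le_one (fun j hj =>
        absurd (amp_anti (Nat.zero_le j)) (by simpa [amp] using hj))
      simp only [Set.mem_singleton_iff, Set.iUnion_iUnion_eq_left, mem_ball, dist_eq_norm]
      have h1 : |Q.x - F.origin.x| ≤ 1 := by
        simp only [origin, sub_zero]; rw [abs_of_nonneg Q.x_mem.1]; exact Q.x_mem.2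
      have h2 : |Q.y - F.origin.y| ≤ 1 := by
        simp only [origin, sub_zero]; rw [abs_of_nonneg Q.y_mem.1]; exact Q.y_mem.2
      linarith
    | succ k ih =>
      obtain ⟨t, ht, hsub, hcov⟩ := ih
      have : ∀ c : E, ∃ C : Finset E, c ∈ t → (C : Set E) ⊆ F.carrier ∧
          F.carrier ∩ closedBall c (5 * (1 / 8) ^ k) ⊆ ⋃ c' ∈ C, ball c' (5 * (1 / 8) ^ k / 8) := by
        intro c
        by_cases hc : c ∈ t
        · obtain ⟨C, h1, -, h3⟩ := F.cover c (hsub hc) (r := 5 * (1 / 8) ^ k) (by positivity)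
          exact ⟨C, fun _ => ⟨h1, h3⟩⟩
        · exact ⟨∅, fun h => absurd h hc⟩
      choose C hC using this
      refine ⟨⋃ c ∈ t, (C c : Set E), ht.biUnion fun c _ => (C c).finite_toSet,
        Set.iUnion₂_subset fun c hc => (hC c hc).1, fun q hq => ?_⟩
      have h1 := hcov hq
      simp only [Set.mem_iUnion] at h1
      obtain ⟨c, hc, hqc⟩ := h1
      have h2 := (hC c hc).2 ⟨hq, ball_subset_closedBall hqc⟩
      simp only [Set.mem_iUnion] at h2 ⊢
      obtain ⟨c', hc', hq'⟩ := h2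
      refine ⟨c', ⟨c, hc, hc'⟩, ?_⟩
      convert hq' using 2
      ring
  rw [Metric.totallyBounded_iff]
  intro ε hε
  obtain ⟨k, hk⟩ := exists_pow_lt_of_lt_one (show 0 < ε / 5 by positivity)
    (show (1 / 8 : ℝ) < 1 by norm_num)
  obtain ⟨t, ht, -, hcov⟩ := key k
  exact ⟨t, ht, hcov.trans (Set.iUnion₂_mono fun c _ => ball_subset_ball (by linarith))⟩

theorem isCompact_closure_carrier [CompleteSpace E] : IsCompact (closure F.carrier) :=
  F.totallyBounded_carrier.closure.isCompact_of_isClosed isClosed_closure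

/-- Rectangles over which a sheet is present. -/
def Val (z : E) (x y A B : ℝ) : Prop :=
  0 < A ∧ 0 < B ∧ 0 ≤ x ∧ 0 ≤ y ∧ x + A ≤ 1 ∧ y + B ≤ 1 ∧ ∃ (N : ℕ) (d : ℕ → E),
    (∀ j, N ≤ j → d j = 0) ∧ z = ∑ j ∈ range N, amp j • d j ∧
    ∀ x' y', x ≤ x' → x' < x + A → y ≤ y' → y' < y + B → ∀ j, F.Allowed j x' y' (d j)

theorem Val.mem {z : E} {x y A B : ℝ} (h : F.Val z x y A B) :
    x • F.u + y • F.v + z ∈ F.carrier := by
  obtain ⟨hA, hB, hx, hy, hx1, hy1, N, d, h1, rfl, h3⟩ := h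
  exact ⟨⟨x, y, N, d, ⟨hx, by linarith⟩, ⟨hy, by linarith⟩, h1,
    h3 x y le_rfl (by linarith) le_rfl (by linarith)⟩, rfl⟩

theorem Val.add_level {N j : ℕ} {d : ℕ → E} (h1 : ∀ j, N ≤ j → d j = 0) (hj : N ≤ j) (w : E)
    {x y A B x' y' A' B' : ℝ} (hx : 0 ≤ x) (hy : 0 ≤ y) (hx1 : x + A ≤ 1) (hy1 : y + B ≤ 1)
    (h3 : ∀ x' y', x ≤ x' → x' < x + A → y ≤ y' → y' < y + B → ∀ j, F.Allowed j x' y' (d j))
    (a1 : x ≤ x') (a2 : x' + A' ≤ x + A) (a3 : y ≤ y') (a4 : y' + B' ≤ y + B) (a5 : 0 < A')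
    (a6 : 0 < B')
    (hw : ∀ x'' y'', x' ≤ x'' → x'' < x' + A' → y' ≤ y'' → y'' < y' + B' → F.Allowed j x'' y'' w) :
    F.Val (∑ j ∈ range N, amp j • d j + amp j • w) x' y' A' B' := by
  classical
  refine ⟨a5, a6, by linarith, by linarith, by linarith, by linarith, j + 1,
    Function.update d j w, fun i hi => ?_, ?_, fun x'' y'' b1 b2 b3 b4 i => ?_⟩
  · rw [Function.update_of_ne (by omega), h1 i (by omega)]
  · rw [sum_range_succ, Function.update_self, ← sum_ext d h1 hj]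
    congr 1
    exact sum_congr rfl fun i hi => by
      rw [Function.update_of_ne (ne_of_lt (mem_range.mp hi))]
  · by_cases hi : i = j
    · rw [hi, Function.update_self]
      exact hw x'' y'' b1 b2 b3 b4
    · rw [Function.update_of_ne hi]
      exact h3 x'' y'' (by linarith) (by linarith) (by linarith) (by linarith) i

theorem no_map {W : Type*} [NormedAddCommGroup W] [InnerProductSpace ℝ W] [ProperSpace W]
    (G : E → W) (hG : ∀ p q, ‖G p - G q‖ ≤ ‖p - q‖) {α : ℝ} (hα : 0 < α)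
    (hlow : ∀ p ∈ F.carrier, ∀ q ∈ F.carrier, α * ‖p - q‖ ≤ ‖G p - G q‖) : False := by
  refine Setup.false_of_setup (E := E) (W := W)
    { g := fun z x y => G (x • F.u + y • F.v + z)
      e := F.e
      Val := F.Val
      α := α
      α_pos := hα
      lip := ?_
      e_le := F.e_le
      e_sep := fun a b hab => by simpa using F.sep 0 0 a b hab
      pos := fun h => ⟨h.1, h.2.1, h.2.2.1, h.2.2.2.1⟩
      mono := ?_
      nonempty := ⟨0, 0, 0, 1, 1, one_pos, one_pos, le_rfl, le_rfl, by simp, by simp, 0,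
        fun _ => 0, fun _ _ => rfl, by simp, fun _ _ _ _ _ _ _ => Or.inl rfl⟩
      low := ?_
      ext := ?_ }
  · intro z z' x x' y y'
    refine (hG _ _).trans ?_
    have e : x • F.u + y • F.v + z - (x' • F.u + y' • F.v + z')
        = ((x - x') • F.u + (y - y') • F.v) + (z - z') := by module
    rw [e]
    linarith [norm_add_le ((x - x') • F.u + (y - y') • F.v) (z - z'), F.base_le (x - x') (y - y')]
  · rintro z x y A B x' y' A' B' ⟨hA, hB, hx, hy, hx1, hy1, N, d, h1, h2, h3⟩ a1 a2 a3 a4 a5 a6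
    exact ⟨a5, a6, by linarith, by linarith, by linarith, by linarith, N, d, h1, h2,
      fun x'' y'' b1 b2 b3 b4 =>
        h3 x'' y'' (by linarith) (by linarith) (by linarith) (by linarith)⟩
  · intro z z' x y A B A' B' h h'
    simpa using hlow _ (Val.mem F h) _ (Val.mem F h')
  · rintro z x y A B ⟨hA, hB, hx, hy, hx1, hy1, N, d, h1, rfl, h3⟩ m n hm hn ε hε
    obtain ⟨k, hk⟩ := exists_amp_le hε
    set j := Nat.pair (Nat.pair (m - 1) (n - 1)) (max k N) with hj
    have hjk : max k N ≤ j := Nat.right_le_pair _ _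
    have hm' : nCol j = m := by simp only [nCol, hj, Nat.unpair_pair]; omega
    have hn' : wid j = n := by simp only [wid, hj, Nat.unpair_pair]; omega
    have hρ := amp_pos j
    have hn0 : (0 : ℝ) < n := by exact_mod_cast hn
    refine ⟨amp j, hρ, (amp_anti ((le_max_left _ _).trans hjk)).trans hk, ?_, ?_⟩
    · intro x' y' A' B' i a1 a2 a3 a4 a5 a6 a7 a8
      refine Val.add_level F h1 ((le_max_right _ _).trans hjk) _ hx hy hx1 hy1 h3 a1 a2 a3 a4 a5 a6
        fun x'' y'' b1 b2 _ _ => Or.inr (Or.inl ?_)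
      have ht : 0 < n * amp j := by positivity
      have : ⌊x'' / (n * amp j)⌋₊ = i := by
        rw [Nat.floor_eq_iff (div_nonneg (by linarith) ht.le), le_div_iff₀ ht, div_lt_iff₀ ht]
        constructor <;> linarith
      rw [hm', hn', this]
    · intro x' y' A' B' i a1 a2 a3 a4 a5 a6 a7 a8
      refine Val.add_level F h1 ((le_max_right _ _).trans hjk) _ hx hy hx1 hy1 h3 a1 a2 a3 a4 a5 a6
        fun x'' y'' _ _ b1 b2 => Or.inr (Or.inr ?_)
      have : ⌊y'' / amp j⌋₊ = i := by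
        rw [Nat.floor_eq_iff (div_nonneg (by linarith) hρ.le), le_div_iff₀ hρ, div_lt_iff₀ hρ]
        constructor <;> linarith
      rw [hm', this]

theorem no_embedding {W : Type*} [NormedAddCommGroup W] [NormedSpace ℝ W] [FiniteDimensional ℝ W]
    {X : Set E} (hX : F.carrier ⊆ X) (f : X → W) {a D : ℝ} (ha : 0 < a)
    (hf : ∀ x y : X, a * dist x y ≤ dist (f x) (f y) ∧ dist (f x) (f y) ≤ D * a * dist x y) :
    False := by
  classical
  let T := toEuclidean (E := W)
  obtain ⟨K₁, hK₁⟩ : ∃ K, LipschitzWith K T := ⟨_, T.lipschitz⟩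
  obtain ⟨K₂, hK₂⟩ : ∃ K, LipschitzWith K T.symm := ⟨_, T.symm.lipschitz⟩
  let f₀ : E → W := fun p => if h : p ∈ X then f ⟨p, h⟩ else 0
  have hf₀ : LipschitzOnWith (D * a).toNNReal f₀ X := by
    refine LipschitzOnWith.of_dist_le' fun p hp q hq => ?_
    simp only [f₀, dif_pos hp, dif_pos hq]
    exact (hf ⟨p, hp⟩ ⟨q, hq⟩).2
  obtain ⟨g, hg, hfg⟩ := hf₀.extend_finite_dimension
  obtain ⟨K, hK⟩ : ∃ K, LipschitzWith K (T ∘ g) := ⟨_, hK₁.comp hg⟩
  have hK1 : (0 : ℝ) < K + 1 := by positivity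
  have hK2 : (0 : ℝ) < K₂ + 1 := by positivity
  refine F.no_map (fun p => ((K : ℝ) + 1)⁻¹ • T (g p)) (fun p q => ?_)
    (α := ((K : ℝ) + 1)⁻¹ * (a / (K₂ + 1))) (by positivity) fun p hp q hq => ?_
  · rw [← smul_sub, norm_smul, norm_inv, Real.norm_of_nonneg hK1.le, inv_mul_le_iff₀ hK1]
    have := hK.dist_le_mul p q
    simp only [dist_eq_norm, Function.comp_apply] at this
    nlinarith [norm_nonneg (p - q)]
  · rw [← smul_sub, norm_smul, norm_inv, Real.norm_of_nonneg hK1.le, mul_assoc]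
    refine mul_le_mul_of_nonneg_left ?_ (by positivity)
    have h1 := (hf ⟨p, hX hp⟩ ⟨q, hX hq⟩).1
    have h2 := hK₂.dist_le_mul (T (g p)) (T (g q))
    have e1 : g p = f ⟨p, hX hp⟩ := by rw [← hfg (hX hp)]; simp only [f₀, dif_pos (hX hp)]
    have e2 : g q = f ⟨q, hX hq⟩ := by rw [← hfg (hX hq)]; simp only [f₀, dif_pos (hX hq)]
    rw [T.symm_apply_apply, T.symm_apply_apply] at h2
    rw [← e1, ← e2, Subtype.dist_eq] at h1
    simp only [dist_eq_norm] at h1 h2
    rw [div_mul_eq_mul_div, div_le_iff₀ hK2]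
    nlinarith [norm_nonneg (T (g p) - T (g q))]

end Frame

end Vale.Agent.P208
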