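import Vale.Agent.P208.Core

/-!
The main estimate and the contradiction.
-/

namespace Vale.Agent.P208

open Finset MeasureTheory

namespace Setup

variable {E W : Type*} [NormedAddCommGroup E] [NormedSpace ℝ E] [NormedAddCommGroup W]
  (S : Setup E W)

theorem integral_U (zc : ℕ → E) (z : E) (a b y t ρ B c₁ c₂ : ℝ) (I R : ℕ) :
    ∫ ξ in (0 : ℝ)..t, ∑ i ∈ range I, (2 * (∑ l ∈ range R, S.dV (zc i) (a + i * t + ξ) (b + l * ρ) ρ)
      + 2 * (∑ l ∈ range R, S.dV z (a + i * t + ξ) (b + l * ρ) ρ)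
      - c₁ * S.dV z (a + i * t + ξ) y B + c₂)
    = ∑ i ∈ range I, (2 * (∑ l ∈ range R, S.J (zc i) (a + i * t) (b + l * ρ) t ρ)
      + 2 * (∑ l ∈ range R, S.J z (a + i * t) (b + l * ρ) t ρ)
      - c₁ * S.J z (a + i * t) y t B + c₂ * t) := by
  have hc : ∀ (z' : E) (i : ℕ), Continuous fun ξ =>
      ∑ l ∈ range R, S.dV z' (a + i * t + ξ) (b + l * ρ) ρ :=
    fun z' i => continuous_finsetSum _ fun l _ => S.cont_dV' _ _ _ _
  have i1 : ∀ (z' : E) (i : ℕ), IntervalIntegrable (fun ξ =>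
      2 * ∑ l ∈ range R, S.dV z' (a + i * t + ξ) (b + l * ρ) ρ) volume 0 t :=
    fun z' i => ((hc z' i).const_mul 2).intervalIntegrable _ _
  have i2 : ∀ i : ℕ, IntervalIntegrable (fun ξ => c₁ * S.dV z (a + i * t + ξ) y B) volume 0 t :=
    fun i => ((S.cont_dV' z _ y B).const_mul c₁).intervalIntegrable _ _
  have i3 : IntervalIntegrable (fun _ : ℝ => c₂) volume 0 t := intervalIntegrable_const
  rw [intervalIntegral.integral_finsetSum (fun i _ =>
    (((i1 (zc i) i).add (i1 z i)).sub (i2 i)).add i3)]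
  refine sum_congr rfl fun i _ => ?_
  rw [intervalIntegral.integral_add (((i1 (zc i) i).add (i1 z i)).sub (i2 i)) i3,
    intervalIntegral.integral_sub ((i1 (zc i) i).add (i1 z i)) (i2 i),
    intervalIntegral.integral_add (i1 (zc i) i) (i1 z i),
    intervalIntegral.integral_const_mul, intervalIntegral.integral_const_mul,
    intervalIntegral.integral_const_mul,
    intervalIntegral.integral_finsetSum (fun l _ => (S.cont_dV' _ _ _ _).intervalIntegrable _ _),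
    intervalIntegral.integral_finsetSum (fun l _ => (S.cont_dV' _ _ _ _).intervalIntegrable _ _),
    intervalIntegral.integral_const]
  simp only [J, sub_zero, smul_eq_mul]
  ring

theorem params {x y A B θ ρ : ℝ} {m n : ℕ} (hm : 0 < m) (hn : 0 < n) (hA : 0 < A) (hB : 0 < B)
    (hx : 0 ≤ x) (hy : 0 ≤ y) (hθ : 0 < θ) (hθ' : θ ≤ 1 / 2) (hρ : 0 < ρ)
    (hρε : ρ ≤ θ * min A B / (3 * m * n)) :
    ∃ (t a b : ℝ) (i₁ l₁ K K' I R : ℕ), t = n * ρ ∧ 0 < t ∧ a = i₁ * (m * t) ∧ b = l₁ * (m * ρ) ∧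
      I = m * K ∧ R = m * K' ∧ x ≤ a ∧ y ≤ b ∧ a + I * t + t ≤ x + A ∧ A - I * t ≤ θ * A ∧
      b + R * ρ ≤ y + B ∧ B - R * ρ ≤ θ * B ∧ ρ ≤ θ * A ∧ ρ ≤ θ * B := by
  have hm1 : (1 : ℝ) ≤ m := by exact_mod_cast hm
  have hn1 : (1 : ℝ) ≤ n := by exact_mod_cast hn
  rw [le_div_iff₀ (by positivity)] at hρε
  obtain ⟨t, ht⟩ : ∃ t : ℝ, t = n * ρ := ⟨_, rfl⟩
  have ht0 : 0 < t := by rw [ht]; positivity
  have hρt : ρ ≤ t := by rw [ht]; nlinarith
  have hP : 3 * (m * t) ≤ θ * A := by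
    have := mul_le_mul_of_nonneg_left (min_le_left A B) hθ.le
    rw [ht]; linarith
  have hP' : 3 * (m * ρ) ≤ θ * B := by
    have := mul_le_mul_of_nonneg_left (min_le_right A B) hθ.le
    have h2 : m * ρ ≤ m * t := mul_le_mul_of_nonneg_left hρt (by positivity)
    have h3 : 3 * (m * t) ≤ θ * B := by rw [ht]; linarith
    linarith
  have htm : t ≤ m * t := le_mul_of_one_le_left ht0.le hm1
  have hρm : ρ ≤ m * ρ := le_mul_of_one_le_left hρ.le hm1
  have hA2 : θ * A ≤ 1 / 2 * A := mul_le_mul_of_nonneg_right hθ' hA.le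
  have hB2 : θ * B ≤ 1 / 2 * B := mul_le_mul_of_nonneg_right hθ' hB.le
  obtain ⟨i₁, K, g1, g2, g3⟩ := grid x A (m * t) hx (by positivity) (by linarith)
  obtain ⟨l₁, K', g4, g5, g6⟩ := grid y B (m * ρ) hy (by positivity) (by linarith)
  have hIt : ((m * K : ℕ) : ℝ) * t = K * (m * t) := by push_cast; ring
  have hRρ : ((m * K' : ℕ) : ℝ) * ρ = K' * (m * ρ) := by push_cast; ring
  exact ⟨t, _, _, i₁, l₁, K, K', m * K, m * K', ht, ht0, rfl, rfl, rfl, rfl, g1, g4,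
    by linarith, by linarith, by linarith, by linarith, by linarith, by linarith⟩

theorem final_arith {α A B θ ρ t δ' G γ X₁ X₂ X₃ : ℝ} {m n K K' I R : ℕ} (hm : 0 < m)
    (hn : 0 < n) (hA : 0 < A) (hB : 0 < B) (hθ : 0 < θ) (hθ' : θ ≤ 1 / 2) (hρ : 0 < ρ)
    (hδ : 0 < δ') (hG0 : 0 ≤ G) (ht : t = n * ρ) (hI : I = m * K) (hR : R = m * K')
    (f2 : A - I * t ≤ θ * A) (f4 : B - R * ρ ≤ θ * B) (f7 : I * t ≤ A) (f8 : R * ρ ≤ B)
    (hint : t * (K * K' * (α * ρ / 4 / (2 * m)) ^ 2 - R * (44 * θ * A * t))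
      ≤ 2 * X₁ + 2 * X₂ - 4 * (ρ / B) * X₃ + I * (24 * θ * B * ρ * t))
    (cellc : X₁ ≤ R * (I * (G * (t * ρ ^ 2))
      + ρ ^ 2 / (δ' * t) * (11 * θ * A * t + I * (4 * ρ * t))))
    (cellz : X₂ ≤ R * (I * (G * (t * ρ ^ 2)) + ρ ^ 2 / (δ' * t) * (11 * θ * A * t)))
    (trim2 : (G - 2 * γ - θ) * (A * B ^ 2) ≤ X₃) :
    (α / (8 * m)) ^ 2 / (4 * m ^ 2)
      ≤ 44 * θ * n ^ 2 + 8 * γ + 28 * θ + 44 * θ / δ' + 8 / (n * δ') := by
  have hm1 : (0 : ℝ) < m := by exact_mod_cast hm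
  have hn1 : (0 : ℝ) < n := by exact_mod_cast hn
  have ht0 : 0 < t := by rw [ht]; positivity
  have hIt : (I : ℝ) * t = K * (m * t) := by rw [hI]; push_cast; ring
  have hRρ : (R : ℝ) * ρ = K' * (m * ρ) := by rw [hR]; push_cast; ring
  have trim3 := mul_le_mul_of_nonneg_left trim2 (show 0 ≤ 4 * (ρ / B) by positivity)
  have hAB : 0 < ρ * A * B := by positivity
  have prod : (I * t) * (R * ρ) ≤ A * B := mul_le_mul f7 f8 (by positivity) hA.le
  have q1 : R * (I * (G * (t * ρ ^ 2))) ≤ G * (ρ * A * B) := by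
    have := mul_le_mul_of_nonneg_left prod (show 0 ≤ G * ρ by positivity)
    linarith only [this]
  have q2 : R * (ρ ^ 2 / (δ' * t) * (11 * θ * A * t)) ≤ 11 * θ / δ' * (ρ * A * B) := by
    have e : R * (ρ ^ 2 / (δ' * t) * (11 * θ * A * t)) = 11 * θ / δ' * (ρ * A) * (R * ρ) := by
      field_simp
    rw [e, mul_assoc (11 * θ / δ')]
    exact mul_le_mul_of_nonneg_left (mul_le_mul_of_nonneg_left f8 (by positivity)) (by positivity)
  have q3 : R * (ρ ^ 2 / (δ' * t) * (I * (4 * ρ * t))) ≤ 4 / (n * δ') * (ρ * A * B) := by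
    have e : R * (ρ ^ 2 / (δ' * t) * (I * (4 * ρ * t)))
        = 4 / (n * δ') * (ρ * ((I * t) * (R * ρ))) := by
      rw [ht]; field_simp
    rw [e, mul_assoc ρ A B]
    exact mul_le_mul_of_nonneg_left (mul_le_mul_of_nonneg_left prod hρ.le) (by positivity)
  have q4 : 4 * (ρ / B) * ((G - 2 * γ - θ) * (A * B ^ 2)) = 4 * (G - 2 * γ - θ) * (ρ * A * B) := by
    field_simp
  have q5 : I * (24 * θ * B * ρ * t) ≤ 24 * θ * (ρ * A * B) := by
    have := mul_le_mul_of_nonneg_left f7 (show 0 ≤ 24 * θ * B * ρ by positivity)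
    linarith only [this]
  have q6 : t * (R * (44 * θ * A * t)) ≤ 44 * θ * n ^ 2 * (ρ * A * B) := by
    have e : t * (R * (44 * θ * A * t)) = 44 * θ * n ^ 2 * (ρ * A) * (R * ρ) := by
      rw [ht]; ring
    have := mul_le_mul_of_nonneg_left f8 (show 0 ≤ 44 * θ * n ^ 2 * (ρ * A) by positivity)
    rw [e]; linarith only [this]
  have q7 : (α / (8 * m)) ^ 2 / (4 * m ^ 2) * (ρ * A * B)
      ≤ t * (K * K' * (α * ρ / 4 / (2 * m)) ^ 2) := by
    have hA2 : θ * A ≤ 1 / 2 * A := mul_le_mul_of_nonneg_right hθ' hA.le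
    have hB2 : θ * B ≤ 1 / 2 * B := mul_le_mul_of_nonneg_right hθ' hB.le
    have h1 : A / 2 ≤ K * (m * t) := by linarith only [hA2, f2, hIt]
    have h2 : B / 2 ≤ K' * (m * ρ) := by linarith only [hB2, f4, hRρ]
    have h3 : A / 2 * (B / 2) ≤ K * (m * t) * (K' * (m * ρ)) :=
      mul_le_mul h1 h2 (by positivity) (by positivity)
    have e1 : (α / (8 * m)) ^ 2 / (4 * m ^ 2) * (ρ * A * B)
        = (α / (8 * m)) ^ 2 / m ^ 2 * ρ * (A / 2 * (B / 2)) := by field_simp; ring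
    have e2 : t * (K * K' * (α * ρ / 4 / (2 * m)) ^ 2)
        = (α / (8 * m)) ^ 2 / m ^ 2 * ρ * (K * (m * t) * (K' * (m * ρ))) := by
      field_simp; ring
    rw [e1, e2]
    exact mul_le_mul_of_nonneg_left h3 (by positivity)
  have e8 : 44 * θ / δ' = 4 * (11 * θ / δ') := by ring
  have e9 : 8 / (n * δ') = 2 * (4 / (n * δ')) := by ring
  refine le_of_mul_le_mul_right ?_ hAB
  rw [e8, e9]
  rw [mul_add, mul_add, mul_add] at cellc
  rw [mul_add] at cellz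
  rw [mul_sub] at hint
  linarith only [hint, cellc, cellz, trim3, q1, q2, q3, q4, q5, q6, q7]

variable [InnerProductSpace ℝ W]

set_option maxHeartbeats 800000 in
theorem estimate {Λ δ' G γ θ : ℝ} {m n : ℕ} (hm : 0 < m) (hn : 0 < n) (hΛ0 : 0 ≤ Λ)
    (hδ : 0 < δ') (hG0 : 0 ≤ G) (hθ : 0 < θ) (hθ' : θ ≤ 1 / 2) (hnδ : 1 ≤ δ' * n)
    (hΛ : ∀ z x y A B, S.Val z x y A B → S.dH z x y A ≤ Λ * A ^ 2)
    (hG : ∀ z x y A B, S.Val z x y A B → (Λ - δ') * A ^ 2 ≤ S.dH z x y A → B ≤ δ' * A →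
      S.J z x y A B ≤ G * (A * B ^ 2))
    (hpack : ∀ w : ℕ → W, (∀ a < m, ‖w a‖ ≤ 1) →
      ∃ a < m, ∃ b < m, a ≠ b ∧ ‖w a - w b‖ < S.α / 4)
    {z : E} {x y A B : ℝ} (hv : S.Val z x y A B) (hgood : (Λ - θ) * A ^ 2 ≤ S.dH z x y A)
    (hthin : B ≤ θ * A) (hJ : (G - 2 * γ) * (A * B ^ 2) ≤ S.J z x y A B) :
    (S.α / (8 * m)) ^ 2 / (4 * m ^ 2)
      ≤ 44 * θ * n ^ 2 + 8 * γ + 28 * θ + 44 * θ / δ' + 8 / (n * δ') := by
  obtain ⟨hA, hB, hx, hy⟩ := S.pos hv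
  obtain ⟨ρ, hρ, hρε, hcol, hrow⟩ := S.ext hv m n hm hn (θ * min A B / (3 * m * n))
    (by have := lt_min hA hB; positivity)
  obtain ⟨t, a, b, i₁, l₁, K, K', I, R, ht, ht0, ha, hb, hI, hR, g1, g4, f1, f2, f3, f4, f5, f6⟩ :=
    params hm hn hA hB hx hy hθ hθ' hρ hρε
  rw [← ht] at hcol
  have f7 : I * t ≤ A := by linarith only [f1, g1, ht0]
  have f8 : R * ρ ≤ B := by linarith only [f3, g4]
  set zc : ℕ → E := fun k => z + ρ • S.e (k % m) with hzc
  have hzc1 : ∀ k, ‖zc k - z‖ ≤ ρ := by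
    intro k
    simp only [hzc, add_sub_cancel_left, norm_smul, Real.norm_of_nonneg hρ.le]
    exact mul_le_of_le_one_right hρ.le (S.e_le (k % m))
  have hz0 : ‖z - z‖ ≤ ρ := by simp [hρ.le]
  have step : ∀ {i N : ℕ} {τ : ℝ}, 0 < τ → i < N → i * τ + τ ≤ N * τ := by
    intro i N τ hτ hi
    have : (i : ℝ) + 1 ≤ N := by exact_mod_cast hi
    linarith only [mul_le_mul_of_nonneg_right this hτ.le]
  have nn : ∀ (i : ℕ) {τ : ℝ}, 0 < τ → 0 ≤ i * τ := fun i τ hτ => by positivity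
  have vz : ∀ ξ, 0 ≤ ξ → ξ ≤ t → ∀ i < I, ∀ l < R, S.Val z (a + ξ + i * t) (b + l * ρ) t ρ := by
    intro ξ h0 h1 i hi l hl
    exact S.mono hv (by linarith only [nn i ht0, g1, h0]) (by linarith only [step ht0 hi, f1, h1])
      (by linarith only [nn l hρ, g4]) (by linarith only [step hρ hl, f3]) ht0 hρ
  have vH : ∀ ξ, 0 ≤ ξ → ξ ≤ t → ∀ i < I, ∀ l < R,
      S.Val (zc l) (a + ξ + i * t) (b + l * ρ) t ρ := by
    intro ξ h0 h1 i hi l hl
    have := hrow (a + ξ + i * t) (b + l * ρ) t ρ (m * l₁ + l) (by linarith only [nn i ht0, g1, h0])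
      (by linarith only [step ht0 hi, f1, h1]) (by linarith only [nn l hρ, g4])
      (by linarith only [step hρ hl, f3]) ht0 hρ
      (by rw [hb]; push_cast; linarith only []) (by rw [hb]; push_cast; linarith only [])
    rwa [Nat.mul_add_mod] at this
  have vV : ∀ ξ, 0 ≤ ξ → ξ < t → ∀ i < I, ∀ l < R,
      S.Val (zc i) (a + ξ + i * t) (b + l * ρ) (t - ξ) ρ := by
    intro ξ h0 h1 i hi l hl
    have := hcol (a + ξ + i * t) (b + l * ρ) (t - ξ) ρ (m * i₁ + i)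
      (by linarith only [nn i ht0, g1, h0]) (by linarith only [step ht0 hi, f1, ht0])
      (by linarith only [nn l hρ, g4]) (by linarith only [step hρ hl, f3])
      (by linarith only [h1]) hρ (by rw [ha]; push_cast; linarith only [h0])
      (by rw [ha]; push_cast; linarith only [])
    rwa [Nat.mul_add_mod] at this
  set h : ℝ → ℕ → ℕ → W := fun ξ i l =>
    S.g (zc l) (a + ξ + i * t) (b + l * ρ) - S.g z (a + ξ + i * t) (b + l * ρ) with hh
  set v : ℝ → ℕ → ℕ → W := fun ξ i l =>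
    S.g (zc i) (a + ξ + i * t) (b + l * ρ) - S.g z (a + ξ + i * t) (b + l * ρ) with hvv
  -- lower bound
  have lower : ∀ ξ, 0 ≤ ξ → ξ < t → K * K' * (S.α * ρ / 4 / (2 * m)) ^ 2 ≤
      ∑ l ∈ range R, ∑ i ∈ range I, ‖h ξ (i + 1) l - h ξ i l‖ ^ 2
      + ∑ i ∈ range I, ∑ l ∈ range R, ‖v ξ i (l + 1) - v ξ i l‖ ^ 2 := by
    intro ξ h0 h1
    rw [hI, hR]
    rw [hI, hR] at vH vV
    refine sum_blocks₂ (fun i l => ‖h ξ (i + 1) l - h ξ i l‖ ^ 2)
      (fun i l => ‖v ξ i (l + 1) - v ξ i l‖ ^ 2) m K K' fun I₀ hI₀ J₀ hJ₀ => ?_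
    have lt1 : ∀ {K₀ I₀ c : ℕ}, I₀ < K₀ → c < m → m * I₀ + c < m * K₀ := by
      intro K₀ I₀ c h1 h2
      calc m * I₀ + c < m * I₀ + m := by omega
        _ = m * (I₀ + 1) := by ring
        _ ≤ m * K₀ := Nat.mul_le_mul_left _ h1
    have hmod : ∀ (I₀ c : ℕ), c < m → zc (m * I₀ + c) = z + ρ • S.e c := by
      intro I₀ c hc
      simp only [hzc, Nat.mul_add_mod, Nat.mod_eq_of_lt hc]
    refine block m hm (β := S.α * ρ / 4) (by have := S.α_pos; positivity)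
      (fun i l => h ξ (m * I₀ + i) (m * J₀ + l)) (fun i l => v ξ (m * I₀ + i) (m * J₀ + l))
      ?_ ?_ ?_
    · obtain ⟨c, hc, d, hd, hcd, hlt⟩ := hpack
        (fun c => ρ⁻¹ • h ξ (m * I₀ + c) (m * J₀ + c)) (by
          intro c hc
          rw [norm_smul, norm_inv, Real.norm_of_nonneg hρ.le, inv_mul_le_iff₀ hρ, mul_one]
          have := S.lip (zc (m * J₀ + c)) z (a + ξ + (m * I₀ + c : ℕ) * t)
            (a + ξ + (m * I₀ + c : ℕ) * t) (b + (m * J₀ + c : ℕ) * ρ) (b + (m * J₀ + c : ℕ) * ρ)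
          simp only [sub_self, abs_zero, zero_add] at this
          exact this.trans (hzc1 _))
      refine ⟨c, hc, d, hd, hcd, ?_⟩
      rw [← smul_sub, norm_smul, norm_inv, Real.norm_of_nonneg hρ.le, inv_mul_lt_iff₀ hρ] at hlt
      linarith only [hlt]
    · intro c hc
      simp only [hh, hvv, hmod _ _ hc]
    · intro c hc d hd hcd
      have h2 := S.low (vH ξ h0 h1.le _ (lt1 hI₀ hd) _ (lt1 hJ₀ hc))
        (vV ξ h0 h1 _ (lt1 hI₀ hd) _ (lt1 hJ₀ hc))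
      have h3 : ρ / 2 ≤ ‖zc (m * J₀ + c) - zc (m * I₀ + d)‖ := by
        rw [hmod _ _ hc, hmod _ _ hd, add_sub_add_left_eq_sub, ← smul_sub, norm_smul,
          Real.norm_of_nonneg hρ.le]
        linarith only [mul_le_mul_of_nonneg_left (S.e_sep c d hcd) hρ.le]
      have h4 := mul_le_mul_of_nonneg_left h3 S.α_pos.le
      simp only [hh, hvv, sub_sub_sub_cancel_right]
      linarith only [h2, h4]
  -- horizontal upper bound
  have hrowb : ∀ ξ, 0 ≤ ξ → ξ ≤ t → ∀ l < R, ∀ z', ‖z' - z‖ ≤ ρ →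
      ∑ i ∈ range I, ‖S.g z' (a + ξ + i * t + t) (b + l * ρ) - S.g z' (a + ξ + i * t) (b + l * ρ)
        - (t / A) • (S.g z (x + A) y - S.g z x y)‖ ^ 2
      ≤ ∑ i ∈ range I, S.dH z' (a + ξ + i * t) (b + l * ρ) t - I * t ^ 2 * Λ
        + 11 * θ * A * t := by
    intro ξ h0 h1 l hl z' hz'
    exact S.hor_bound I hΛ0 hA ht0 hgood hthin f5 hz' (by linarith only [g1, h0])
      (by linarith only [f1, h1]) f2
      (by linarith only [nn l hρ, g4]) (by linarith only [step hρ hl, f3, hρ])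
  have sumΛ : ∀ (z' : E) (ξ : ℝ) (l : ℕ),
      (∀ i < I, S.Val z' (a + ξ + i * t) (b + l * ρ) t ρ) →
      ∑ i ∈ range I, S.dH z' (a + ξ + i * t) (b + l * ρ) t ≤ I * t ^ 2 * Λ := by
    intro z' ξ l hval
    calc _ ≤ ∑ _i ∈ range I, Λ * t ^ 2 :=
          sum_le_sum fun i hi => hΛ _ _ _ _ _ (hval i (mem_range.mp hi))
      _ = _ := by rw [sum_const, card_range, nsmul_eq_mul]; ring
  have upperH : ∀ ξ, 0 ≤ ξ → ξ ≤ t →
      ∑ l ∈ range R, ∑ i ∈ range I, ‖h ξ (i + 1) l - h ξ i l‖ ^ 2 ≤ R * (44 * θ * A * t) := by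
    intro ξ h0 h1
    calc _ ≤ ∑ _l ∈ range R, 44 * θ * A * t := sum_le_sum fun l hl => ?_
      _ = _ := by rw [sum_const, card_range, nsmul_eq_mul]
    have hl' := mem_range.mp hl
    have b1 := hrowb ξ h0 h1 l hl' (zc l) (hzc1 l)
    have b2 := hrowb ξ h0 h1 l hl' z hz0
    have b3 := sumΛ (zc l) ξ l fun i hi => vH ξ h0 h1 i hi l hl'
    have b4 := sumΛ z ξ l fun i hi => vz ξ h0 h1 i hi l hl'
    calc _ ≤ ∑ i ∈ range I, (2 * ‖S.g (zc l) (a + ξ + i * t + t) (b + l * ρ)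
            - S.g (zc l) (a + ξ + i * t) (b + l * ρ)
            - (t / A) • (S.g z (x + A) y - S.g z x y)‖ ^ 2
          + 2 * ‖S.g z (a + ξ + i * t + t) (b + l * ρ) - S.g z (a + ξ + i * t) (b + l * ρ)
            - (t / A) • (S.g z (x + A) y - S.g z x y)‖ ^ 2) := sum_le_sum fun i _ => ?_
      _ ≤ _ := by rw [sum_add_distrib, ← mul_sum, ← mul_sum]; linarith only [b1, b2, b3, b4]
    have e1 : a + ξ + ((i + 1 : ℕ) : ℝ) * t = a + ξ + i * t + t := by push_cast; ring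
    have e2 : h ξ (i + 1) l - h ξ i l = (S.g (zc l) (a + ξ + i * t + t) (b + l * ρ)
        - S.g (zc l) (a + ξ + i * t) (b + l * ρ))
        - (S.g z (a + ξ + i * t + t) (b + l * ρ) - S.g z (a + ξ + i * t) (b + l * ρ)) := by
      simp only [hh, e1]; abel
    rw [e2]
    exact sq_sub_le _ _ _
  -- vertical upper bound, pointwise
  set U : ℝ → ℝ := fun ξ => ∑ i ∈ range I,
    (2 * (∑ l ∈ range R, S.dV (zc i) (a + i * t + ξ) (b + l * ρ) ρ)
      + 2 * (∑ l ∈ range R, S.dV z (a + i * t + ξ) (b + l * ρ) ρ)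
      - 4 * (ρ / B) * S.dV z (a + i * t + ξ) y B + 24 * θ * B * ρ) with hU
  have upperV : ∀ ξ, ∑ i ∈ range I, ∑ l ∈ range R, ‖v ξ i (l + 1) - v ξ i l‖ ^ 2 ≤ U ξ := by
    intro ξ
    refine sum_le_sum fun i _ => ?_
    have b1 := S.ver_bound (x := a + i * t + ξ) R hB hρ f6 (hzc1 i) g4 f3 f4
    have b2 := S.ver_bound (x := a + i * t + ξ) R hB hρ f6 hz0 g4 f3 f4
    calc _ ≤ ∑ l ∈ range R, (2 * ‖S.g (zc i) (a + i * t + ξ) (b + l * ρ + ρ)
            - S.g (zc i) (a + i * t + ξ) (b + l * ρ)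
            - (ρ / B) • (S.g z (a + i * t + ξ) (y + B) - S.g z (a + i * t + ξ) y)‖ ^ 2
          + 2 * ‖S.g z (a + i * t + ξ) (b + l * ρ + ρ) - S.g z (a + i * t + ξ) (b + l * ρ)
            - (ρ / B) • (S.g z (a + i * t + ξ) (y + B) - S.g z (a + i * t + ξ) y)‖ ^ 2) :=
          sum_le_sum fun l _ => ?_
      _ ≤ _ := by rw [sum_add_distrib, ← mul_sum, ← mul_sum]; linarith only [b1, b2]
    have e1 : b + ((l + 1 : ℕ) : ℝ) * ρ = b + l * ρ + ρ := by push_cast; ring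
    have e3 : a + ξ + i * t = a + i * t + ξ := by ring
    have e2 : v ξ i (l + 1) - v ξ i l = (S.g (zc i) (a + i * t + ξ) (b + l * ρ + ρ)
        - S.g (zc i) (a + i * t + ξ) (b + l * ρ))
        - (S.g z (a + i * t + ξ) (b + l * ρ + ρ) - S.g z (a + i * t + ξ) (b + l * ρ)) := by
      simp only [hvv, e1, e3]; abel
    rw [e2]
    exact sq_sub_le _ _ _
  have hUc : Continuous U := by
    refine continuous_finsetSum _ fun i _ => ?_
    have hc : ∀ z' : E, Continuous fun ξ =>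
        ∑ l ∈ range R, S.dV z' (a + i * t + ξ) (b + l * ρ) ρ :=
      fun z' => continuous_finsetSum _ fun l _ => S.cont_dV' _ _ _ _
    exact ((((hc _).const_mul 2).add ((hc _).const_mul 2)).sub
      ((S.cont_dV' z _ y B).const_mul _)).add continuous_const
  have hint : t * (K * K' * (S.α * ρ / 4 / (2 * m)) ^ 2 - R * (44 * θ * A * t))
      ≤ ∫ ξ in (0 : ℝ)..t, U ξ := by
    have := intervalIntegral.integral_mono_on_of_le_Ioo (μ := volume) ht0.le
      (f := fun _ => K * K' * (S.α * ρ / 4 / (2 * m)) ^ 2 - R * (44 * θ * A * t))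
      (continuous_const.intervalIntegrable 0 t) (hUc.intervalIntegrable 0 t) (fun ξ hξ => by
        linarith only [lower ξ hξ.1.le hξ.2, upperH ξ hξ.1.le hξ.2.le, upperV ξ])
    rwa [intervalIntegral.integral_const, sub_zero, smul_eq_mul] at this
  rw [hU, S.integral_U] at hint
  -- bounds for the integrated cells
  have thin : ρ ≤ δ' * t := by
    rw [ht]; linarith only [mul_le_mul_of_nonneg_right hnδ hρ.le]
  have hq : 0 < ρ ^ 2 / (δ' * t) := by positivity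
  have def0 : ∀ l < R, ∑ i ∈ range I, (Λ * t ^ 2 - S.dH z (a + i * t) (b + l * ρ) t)
      ≤ 11 * θ * A * t := by
    intro l hl
    have b1 := hrowb 0 le_rfl ht0.le l hl z hz0
    have b2 : 0 ≤ ∑ i ∈ range I, ‖S.g z (a + 0 + i * t + t) (b + l * ρ)
        - S.g z (a + 0 + i * t) (b + l * ρ)
        - (t / A) • (S.g z (x + A) y - S.g z x y)‖ ^ 2 := sum_nonneg fun _ _ => sq_nonneg _
    simp only [add_zero] at b1 b2
    rw [sum_sub_distrib, sum_const, card_range, nsmul_eq_mul]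
    linarith only [b1, b2]
  have cellz : ∑ i ∈ range I, ∑ l ∈ range R, S.J z (a + i * t) (b + l * ρ) t ρ
      ≤ R * (I * (G * (t * ρ ^ 2)) + ρ ^ 2 / (δ' * t) * (11 * θ * A * t)) := by
    rw [sum_comm]
    calc _ ≤ ∑ _l ∈ range R, (I * (G * (t * ρ ^ 2)) + ρ ^ 2 / (δ' * t) * (11 * θ * A * t)) :=
          sum_le_sum fun l hl => ?_
      _ = _ := by rw [sum_const, card_range, nsmul_eq_mul]
    have hl' := mem_range.mp hl
    calc _ ≤ ∑ i ∈ range I, (G * (t * ρ ^ 2)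
          + ρ ^ 2 / (δ' * t) * (Λ * t ^ 2 - S.dH z (a + i * t) (b + l * ρ) t)) :=
          sum_le_sum fun i hi => S.J_cell hδ hG0 hΛ hG
            (by simpa using vz 0 le_rfl ht0.le i (mem_range.mp hi) l hl') thin
      _ ≤ _ := by
        rw [sum_add_distrib, sum_const, card_range, nsmul_eq_mul, ← mul_sum]
        linarith only [mul_le_mul_of_nonneg_left (def0 l hl') hq.le]
  have cellc : ∑ i ∈ range I, ∑ l ∈ range R, S.J (zc i) (a + i * t) (b + l * ρ) t ρ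
      ≤ R * (I * (G * (t * ρ ^ 2)) + ρ ^ 2 / (δ' * t) * (11 * θ * A * t + I * (4 * ρ * t))) := by
    rw [sum_comm]
    calc _ ≤ ∑ _l ∈ range R, (I * (G * (t * ρ ^ 2))
            + ρ ^ 2 / (δ' * t) * (11 * θ * A * t + I * (4 * ρ * t))) :=
          sum_le_sum fun l hl => ?_
      _ = _ := by rw [sum_const, card_range, nsmul_eq_mul]
    have hl' := mem_range.mp hl
    calc _ ≤ ∑ i ∈ range I, (G * (t * ρ ^ 2) + ρ ^ 2 / (δ' * t)
          * ((Λ * t ^ 2 - S.dH z (a + i * t) (b + l * ρ) t) + 4 * ρ * t)) :=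
          sum_le_sum fun i hi => ?_
      _ ≤ _ := by
        rw [sum_add_distrib, sum_const, card_range, nsmul_eq_mul, ← mul_sum, sum_add_distrib,
          sum_const, card_range, nsmul_eq_mul]
        have := def0 l hl'
        linarith only [mul_le_mul_of_nonneg_left (add_le_add_left this (I * (4 * ρ * t))) hq.le]
    have c1 := S.J_cell hδ hG0 hΛ hG
      (show S.Val (zc i) (a + i * t) (b + l * ρ) t ρ by
        simpa using vV 0 le_rfl ht0 i (mem_range.mp hi) l hl') thin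
    have c2 := S.dH_shift (x := a + i * t) (y := b + l * ρ) ht0.le (hzc1 i)
    have c3 := mul_le_mul_of_nonneg_left (show Λ * t ^ 2 - S.dH (zc i) (a + i * t) (b + l * ρ) t
      ≤ (Λ * t ^ 2 - S.dH z (a + i * t) (b + l * ρ) t) + 4 * ρ * t by linarith only [c2]) hq.le
    linarith only [c1, c3]
  have trim := S.J_trim z (y := y) I hB.le g1 (show a + I * t ≤ x + A by linarith only [f1, ht0])
  have trim2 : (G - 2 * γ - θ) * (A * B ^ 2) ≤ ∑ i ∈ range I, S.J z (a + i * t) y t B := by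
    have := mul_le_mul_of_nonneg_right f2 (sq_nonneg B)
    linarith only [this, trim, hJ]
  rw [sum_add_distrib, sum_sub_distrib, sum_add_distrib, ← mul_sum, ← mul_sum, ← mul_sum,
    sum_const, card_range, nsmul_eq_mul] at hint
  exact final_arith hm hn hA hB hθ hθ' hρ hδ hG0 ht hI hR f2 f4 f7 f8 hint cellc cellz trim2

include S in
theorem false_of_setup [ProperSpace W] : False := by
  obtain ⟨m, hm, hpack⟩ := packing (W := W) (κ := S.α / 4) (by have := S.α_pos; positivity)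
  obtain ⟨Λ, hΛ0, hΛ, hΛ'⟩ := S.exists_lam
  have hm' : (0 : ℝ) < m := by exact_mod_cast hm
  set c : ℝ := (S.α / (8 * m)) ^ 2 / (4 * m ^ 2) with hc
  have hc0 : 0 < c := by have := S.α_pos; positivity
  obtain ⟨δ', hδ', G, hG0, hG, hG'⟩ := lex_sup (S := E × ℝ × ℝ × ℝ × ℝ)
    (fun δ s => S.Val s.1 s.2.1 s.2.2.1 s.2.2.2.1 s.2.2.2.2 ∧
      (Λ - δ) * s.2.2.2.1 ^ 2 ≤ S.dH s.1 s.2.1 s.2.2.1 s.2.2.2.1 ∧ s.2.2.2.2 ≤ δ * s.2.2.2.1)
    (fun s => S.J s.1 s.2.1 s.2.2.1 s.2.2.2.1 s.2.2.2.2 / (s.2.2.2.1 * s.2.2.2.2 ^ 2))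
    (fun δ hδ => by
      obtain ⟨z, x, y, A, B, h⟩ := hΛ' δ hδ
      exact ⟨(z, x, y, A, B), h⟩)
    (by
      rintro δ ⟨z, x, y, A, B⟩ ⟨hv, -, -⟩
      have hA := (S.pos hv).1
      have hB := (S.pos hv).2.1
      refine ⟨div_nonneg (S.J_nonneg _ _ _ _ hA.le) (by positivity), ?_⟩
      rw [div_le_one (by positivity)]
      exact S.J_le _ _ _ hA.le hB.le)
    (γ := c / 32) (by positivity)
  obtain ⟨n, hn⟩ := exists_nat_ge (max (1 / δ') (32 / (δ' * c)))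
  have hn1 : 1 / δ' ≤ n := (le_max_left _ _).trans hn
  have hn2 : 32 / (δ' * c) ≤ n := (le_max_right _ _).trans hn
  have hn0 : (0 : ℝ) < n := lt_of_lt_of_le (by positivity) hn1
  set M : ℝ := 44 * n ^ 2 + 28 + 44 / δ' with hM
  have hM0 : 0 < M := by positivity
  set θ := min (1 / 2) (c / (4 * M)) with hθ
  have hθ0 : 0 < θ := lt_min (by norm_num) (by positivity)
  obtain ⟨⟨z, x, y, A, B⟩, ⟨hv, hgood, hthin⟩, hJ⟩ := hG' θ hθ0
  have hA := (S.pos hv).1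
  have hB := (S.pos hv).2.1
  simp only at hv hgood hthin hJ hA hB
  rw [le_div_iff₀ (by positivity)] at hJ
  have := S.estimate (γ := c / 32) hm (by exact_mod_cast hn0) hΛ0 hδ' hG0 hθ0 (min_le_left _ _)
    (by rw [div_le_iff₀ hδ'] at hn1; linarith) hΛ
    (fun z x y A B hv h1 h2 => by
      have hA := (S.pos hv).1
      have hB := (S.pos hv).2.1
      have := hG (z, x, y, A, B) ⟨hv, h1, h2⟩
      simp only at this
      rwa [div_le_iff₀ (by positivity)] at this) hpack hv hgood hthin hJ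
  have k1 : θ * M ≤ c / 4 := by
    have := min_le_right (1 / 2) (c / (4 * M))
    rw [← hθ, le_div_iff₀ (by positivity)] at this
    linarith
  have k2 : 8 / (n * δ') ≤ c / 4 := by
    rw [div_le_iff₀ (by positivity)] at hn2 ⊢
    nlinarith
  have k3 : θ * M = 44 * θ * n ^ 2 + 28 * θ + 44 * θ / δ' := by rw [hM]; ring
  linarith

end Setup

end Vale.Agent.P208
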