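import Mathlib

/-!
Elementary tools for the non-embedding argument.
-/

namespace Vale.Agent.P208

open Finset
open scoped RealInnerProductSpace

section inner

variable {W : Type*} [NormedAddCommGroup W] [InnerProductSpace ℝ W]

theorem chain_identity (p : ℕ → W) (M : W) (N : ℕ) :
    ∑ i ∈ range N, ‖p (i + 1) - p i - M‖ ^ 2
      = ∑ i ∈ range N, ‖p (i + 1) - p i‖ ^ 2 - 2 * ⟪p N - p 0, M⟫ + N * ‖M‖ ^ 2 := by
  induction N with
  | zero => simp
  | succ N ih =>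
    rw [sum_range_succ, sum_range_succ, ih, norm_sub_sq_real (p (N + 1) - p N) M]
    simp only [inner_sub_left]
    push_cast
    ring

theorem chain_bound (p : ℕ → W) (D : W) (N : ℕ) {T τ err : ℝ} (hT : 0 < T) (hτ : 0 < τ)
    (hN : N * τ ≤ T) (hD : ‖D‖ ≤ T) (herr : ‖p N - p 0 - D‖ ≤ err) :
    ∑ i ∈ range N, ‖p (i + 1) - p i - (τ / T) • D‖ ^ 2
      ≤ ∑ i ∈ range N, ‖p (i + 1) - p i‖ ^ 2 - τ / T * ‖D‖ ^ 2 + 2 * τ * err := by
  rw [chain_identity]
  have hq : 0 < τ / T := div_pos hτ hT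
  have h1 : ⟪p N - p 0, (τ / T) • D⟫ = τ / T * ‖D‖ ^ 2 + τ / T * ⟪p N - p 0 - D, D⟫ := by
    rw [real_inner_smul_right, inner_sub_left (p N - p 0) D D, real_inner_self_eq_norm_sq]
    ring
  have h2 : -(err * T) ≤ ⟪p N - p 0 - D, D⟫ := by
    have := abs_real_inner_le_norm (p N - p 0 - D) D
    have h3 : ‖p N - p 0 - D‖ * ‖D‖ ≤ err * T :=
      mul_le_mul herr hD (norm_nonneg _) ((norm_nonneg _).trans herr)
    linarith [neg_abs_le ⟪p N - p 0 - D, D⟫]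
  have h4 : -(τ * err) ≤ τ / T * ⟪p N - p 0 - D, D⟫ := by
    have := mul_le_mul_of_nonneg_left h2 hq.le
    have h5 : τ / T * -(err * T) = -(τ * err) := by field_simp
    linarith
  have h6 : N * ‖(τ / T) • D‖ ^ 2 ≤ τ / T * ‖D‖ ^ 2 := by
    rw [norm_smul, Real.norm_of_nonneg hq.le, mul_pow, ← mul_assoc]
    apply mul_le_mul_of_nonneg_right _ (sq_nonneg _)
    have h7 : N * (τ / T) ≤ 1 := by
      rw [← mul_div_assoc, div_le_one hT]; exact hN
    nlinarith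
  linarith

end inner

section normed

variable {W : Type*} [NormedAddCommGroup W]

theorem sq_sub_le (a b M : W) : ‖a - b‖ ^ 2 ≤ 2 * ‖a - M‖ ^ 2 + 2 * ‖b - M‖ ^ 2 := by
  have h : a - b = (a - M) - (b - M) := by abel
  have h1 := norm_sub_le (a - M) (b - M)
  rw [← h] at h1
  have h2 := norm_nonneg (a - b)
  nlinarith [sq_nonneg (‖a - M‖ - ‖b - M‖)]

theorem tele (f : ℕ → W) (m : ℕ) {c : ℝ} (hc : 0 ≤ c) (h : ∀ i < m, ‖f (i + 1) - f i‖ ≤ c)
    {i j : ℕ} (hi : i < m) (hj : j < m) : ‖f i - f j‖ ≤ m * c := by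
  have key : ∀ a k : ℕ, a + k ≤ m → ‖f (a + k) - f a‖ ≤ k * c := by
    intro a k
    induction k with
    | zero => intro _; simp
    | succ k ih =>
      intro hk
      have h1 := ih (by omega)
      have h2 := h (a + k) (by omega)
      have h3 : f (a + (k + 1)) - f a = (f (a + k + 1) - f (a + k)) + (f (a + k) - f a) := by
        rw [← add_assoc]; abel
      rw [h3]
      refine (norm_add_le _ _).trans ?_
      push_cast
      linarith
  have key2 : ∀ a b : ℕ, a ≤ b → b < m → ‖f b - f a‖ ≤ m * c := by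
    intro a b hab hb
    obtain ⟨k, rfl⟩ := Nat.exists_eq_add_of_le hab
    refine (key a k hb.le).trans (mul_le_mul_of_nonneg_right ?_ hc)
    exact_mod_cast (by omega : k ≤ m)
  rcases le_total i j with h' | h'
  · rw [norm_sub_rev]; exact key2 i j h' hj
  · exact key2 j i h' hi

theorem packing [ProperSpace W] {κ : ℝ} (hκ : 0 < κ) :
    ∃ m : ℕ, 0 < m ∧ ∀ w : ℕ → W, (∀ a < m, ‖w a‖ ≤ 1) →
      ∃ a < m, ∃ b < m, a ≠ b ∧ ‖w a - w b‖ < κ := by
  classical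
  obtain ⟨t, -, htf, hcov⟩ := Metric.finite_approx_of_totallyBounded
    (isCompact_closedBall (0 : W) 1).totallyBounded (κ / 2) (by positivity)
  refine ⟨htf.toFinset.card + 1, Nat.succ_pos _, fun w hw => ?_⟩
  have hc : ∀ a, a < htf.toFinset.card + 1 → ∃ y ∈ htf.toFinset, ‖w a - y‖ < κ / 2 := by
    intro a ha
    have := hcov (mem_closedBall_zero_iff.mpr (hw a ha))
    simp only [Set.mem_iUnion, Metric.mem_ball, dist_eq_norm] at this
    obtain ⟨y, hy, hy'⟩ := this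
    exact ⟨y, htf.mem_toFinset.mpr hy, hy'⟩
  choose! φ hφ using hc
  obtain ⟨a, ha, b, hb, hab, hφab⟩ := Finset.exists_ne_map_eq_of_card_lt_of_maps_to
    (s := range (htf.toFinset.card + 1)) (t := htf.toFinset) (by simp)
    (f := φ) (fun a ha => (hφ a (mem_range.mp ha)).1)
  refine ⟨a, mem_range.mp ha, b, mem_range.mp hb, hab, ?_⟩
  have h1 := (hφ a (mem_range.mp ha)).2
  have h2 := (hφ b (mem_range.mp hb)).2
  rw [hφab] at h1
  have h3 : w a - w b = (w a - φ b) - (w b - φ b) := by abel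
  rw [h3]
  linarith [norm_sub_le (w a - φ b) (w b - φ b)]

theorem block (m : ℕ) (hm : 0 < m) {β : ℝ} (hβ : 0 < β) (h v : ℕ → ℕ → W)
    (hpack : ∃ a < m, ∃ b < m, a ≠ b ∧ ‖h a a - h b b‖ < β)
    (hdiag : ∀ a < m, h a a = v a a)
    (hsep : ∀ a < m, ∀ b < m, a ≠ b → 2 * β ≤ ‖h b a - v b a‖) :
    (β / (2 * m)) ^ 2 ≤ ∑ l ∈ range m, ∑ i ∈ range m, ‖h (i + 1) l - h i l‖ ^ 2
      + ∑ i ∈ range m, ∑ l ∈ range m, ‖v i (l + 1) - v i l‖ ^ 2 := by
  by_contra hcon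
  push Not at hcon
  have hm' : (0 : ℝ) < m := by exact_mod_cast hm
  set c := β / (2 * m) with hc
  have hc0 : 0 ≤ c := by positivity
  have n1 : 0 ≤ ∑ l ∈ range m, ∑ i ∈ range m, ‖h (i + 1) l - h i l‖ ^ 2 :=
    sum_nonneg fun _ _ => sum_nonneg fun _ _ => sq_nonneg _
  have n2 : 0 ≤ ∑ i ∈ range m, ∑ l ∈ range m, ‖v i (l + 1) - v i l‖ ^ 2 :=
    sum_nonneg fun _ _ => sum_nonneg fun _ _ => sq_nonneg _
  have single : ∀ (F : ℕ → ℕ → ℝ), (∀ a b, 0 ≤ F a b) → ∀ a < m, ∀ b < m,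
      F a b ≤ ∑ l ∈ range m, ∑ i ∈ range m, F l i := by
    intro F hF a ha b hb
    calc F a b ≤ ∑ i ∈ range m, F a i :=
          single_le_sum (f := fun i => F a i) (fun i _ => hF a i) (mem_range.mpr hb)
      _ ≤ _ := single_le_sum (f := fun l => ∑ i ∈ range m, F l i)
          (fun l _ => sum_nonneg fun i _ => hF l i) (mem_range.mpr ha)
  have s1 : ∀ l < m, ∀ i < m, ‖h (i + 1) l - h i l‖ ≤ c := by
    intro l hl i hi
    have := single (fun l i => ‖h (i + 1) l - h i l‖ ^ 2) (fun _ _ => sq_nonneg _) l hl i hi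
    exact (abs_le_of_sq_le_sq' (by linarith) hc0).2
  have s2 : ∀ i < m, ∀ l < m, ‖v i (l + 1) - v i l‖ ≤ c := by
    intro i hi l hl
    have := single (fun i l => ‖v i (l + 1) - v i l‖ ^ 2) (fun _ _ => sq_nonneg _) i hi l hl
    exact (abs_le_of_sq_le_sq' (by linarith) hc0).2
  obtain ⟨a, ha, b, hb, hab, hlt⟩ := hpack
  have t1 : ‖h b a - h a a‖ ≤ m * c := tele (fun i => h i a) m hc0 (s1 a ha) hb ha
  have t2 : ‖v b b - v b a‖ ≤ m * c := tele (fun l => v b l) m hc0 (s2 b hb) hb ha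
  have t3 := hsep a ha b hb hab
  have t4 : h b a - v b a = (h b a - h a a) + (h a a - h b b) + (v b b - v b a) := by
    rw [hdiag b hb]; abel
  have t5 : m * c = β / 2 := by rw [hc]; field_simp
  rw [t4] at t3
  have t6 := norm_add_le ((h b a - h a a) + (h a a - h b b)) (v b b - v b a)
  have t7 := norm_add_le (h b a - h a a) (h a a - h b b)
  linarith

end normed

theorem sum_blocks (f : ℕ → ℝ) (m K : ℕ) :
    ∑ i ∈ range (m * K), f i = ∑ I ∈ range K, ∑ a ∈ range m, f (m * I + a) := by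
  induction K with
  | zero => simp
  | succ K ih => rw [Nat.mul_succ, sum_range_add, ih, sum_range_succ]

theorem sum_blocks₂ (F G : ℕ → ℕ → ℝ) (m K K' : ℕ) {c : ℝ}
    (h : ∀ I < K, ∀ J < K', c ≤ ∑ l ∈ range m, ∑ i ∈ range m, F (m * I + i) (m * J + l)
      + ∑ i ∈ range m, ∑ l ∈ range m, G (m * I + i) (m * J + l)) :
    K * K' * c ≤ ∑ l ∈ range (m * K'), ∑ i ∈ range (m * K), F i l
      + ∑ i ∈ range (m * K), ∑ l ∈ range (m * K'), G i l := by
  have e1 : ∑ l ∈ range (m * K'), ∑ i ∈ range (m * K), F i l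
      = ∑ I ∈ range K, ∑ J ∈ range K', ∑ l ∈ range m, ∑ i ∈ range m,
        F (m * I + i) (m * J + l) := by
    rw [sum_blocks, sum_comm (s := range K)]
    refine sum_congr rfl fun J _ => ?_
    rw [sum_comm (s := range K)]
    exact sum_congr rfl fun l _ => sum_blocks _ _ _
  have e2 : ∑ i ∈ range (m * K), ∑ l ∈ range (m * K'), G i l
      = ∑ I ∈ range K, ∑ J ∈ range K', ∑ i ∈ range m, ∑ l ∈ range m,
        G (m * I + i) (m * J + l) := by
    rw [sum_blocks]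
    refine sum_congr rfl fun I _ => ?_
    rw [sum_comm (s := range K')]
    exact sum_congr rfl fun i _ => sum_blocks _ _ _
  rw [e1, e2, ← sum_add_distrib]
  calc (K : ℝ) * K' * c = ∑ _I ∈ range K, ∑ _J ∈ range K', c := by simp [mul_assoc]
    _ ≤ _ := sum_le_sum fun I hI => by
      rw [← sum_add_distrib]
      exact sum_le_sum fun J hJ => h I (mem_range.mp hI) J (mem_range.mp hJ)

theorem grid (x A P : ℝ) (hx : 0 ≤ x) (hP : 0 < P) (hA : 2 * P ≤ A) :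
    ∃ i K : ℕ, x ≤ i * P ∧ i * P + K * P + P ≤ x + A ∧ A - K * P ≤ 3 * P := by
  have h2 : 2 ≤ ⌊A / P⌋₊ := Nat.le_floor (by rw [le_div_iff₀ hP]; exact_mod_cast hA)
  obtain ⟨K, hK⟩ := Nat.exists_eq_add_of_le h2
  have f1 : (⌊A / P⌋₊ : ℝ) ≤ A / P := Nat.floor_le (div_nonneg (by linarith) hP.le)
  have f2 : A / P < ⌊A / P⌋₊ + 1 := Nat.lt_floor_add_one _
  have c1 : x / P ≤ ⌈x / P⌉₊ := Nat.le_ceil _
  have c2 : (⌈x / P⌉₊ : ℝ) < x / P + 1 := Nat.ceil_lt_add_one (div_nonneg hx hP.le)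
  rw [hK] at f1 f2
  push_cast at f1 f2
  rw [le_div_iff₀ hP] at f1
  rw [div_lt_iff₀ hP] at f2
  rw [div_le_iff₀ hP] at c1
  have c3 : (⌈x / P⌉₊ : ℝ) * P < x + P := by
    have := mul_lt_mul_of_pos_right c2 hP
    rwa [add_mul, div_mul_cancel₀ _ hP.ne', one_mul] at this
  exact ⟨⌈x / P⌉₊, K, c1, by nlinarith, by nlinarith⟩

theorem lex_sup {S : Type*} (good : ℝ → S → Prop) (v : S → ℝ)
    (hne : ∀ δ > 0, ∃ s, good δ s) (h0 : ∀ δ s, good δ s → 0 ≤ v s ∧ v s ≤ 1) {γ : ℝ}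
    (hγ : 0 < γ) : ∃ δ' > 0, ∃ G : ℝ, 0 ≤ G ∧ (∀ s, good δ' s → v s ≤ G) ∧
      ∀ δ > 0, ∃ s, good δ s ∧ G - 2 * γ ≤ v s := by
  set T : Set ℝ := {c | ∀ δ > 0, ∃ s, good δ s ∧ c ≤ v s} with hT
  have hz : (0 : ℝ) ∈ T := fun δ hδ => by
    obtain ⟨s, hs⟩ := hne δ hδ
    exact ⟨s, hs, (h0 δ s hs).1⟩
  have hb : BddAbove T := ⟨1, fun c hc => by
    obtain ⟨s, hs, hc'⟩ := hc 1 one_pos
    exact hc'.trans (h0 1 s hs).2⟩
  have hn : sSup T + γ ∉ T := fun h => by linarith [le_csSup hb h]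
  simp only [hT, Set.mem_setOf_eq, not_forall, not_exists, not_and, not_le] at hn
  obtain ⟨δ', hδ', hG⟩ := hn
  obtain ⟨c, hc, hc'⟩ := exists_lt_of_lt_csSup ⟨0, hz⟩ (show sSup T - γ < sSup T by linarith)
  refine ⟨δ', hδ', sSup T + γ, by linarith [le_csSup hb hz], fun s hs => (hG s hs).le,
    fun δ hδ => ?_⟩
  obtain ⟨s, hs, hs'⟩ := hc δ hδ
  exact ⟨s, hs, by linarith⟩

end Vale.Agent.P208
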